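import Vale.Agent.P143.Defs

/-!
The noisy channel: quantile function of the density `(1 + m w / 8) / 2` on `[-1, 1]`.
-/

open MeasureTheory ProbabilityTheory Filter Topology Set
open scoped unitInterval ENNReal

namespace Vale.Agent.P143

noncomputable def cdf (m w : ℝ) : ℝ := (w + 1) / 2 + m * (w ^ 2 - 1) / 32

noncomputable def Q (m u : ℝ) : ℝ :=
  2 * (u - 1 / 2 + m / 32) / (1 / 2 + √(1 / 4 + m * (u - 1 / 2 + m / 32) / 8))

theorem Q_spec {m u : ℝ} (hm : |m| ≤ 1) (hu : u ∈ Icc (0 : ℝ) 1) :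
    cdf m (Q m u) = u ∧ |Q m u| ≤ 1 := by
  obtain ⟨m1, m2⟩ := abs_le.1 hm
  obtain ⟨u1, u2⟩ := hu
  obtain ⟨s, hs⟩ : ∃ s, s = u - 1 / 2 + m / 32 := ⟨_, rfl⟩
  have h0 : 0 ≤ 1 / 4 + m * s / 8 := by nlinarith
  have h1 := Real.sq_sqrt h0
  have h2 := Real.sqrt_nonneg (1 / 4 + m * s / 8)
  have h3 : Q m u * (1 / 2 + √(1 / 4 + m * s / 8)) = 2 * s := by
    rw [Q, ← hs]; field_simp
  generalize √(1 / 4 + m * s / 8) = r at *
  generalize Q m u = q at *
  have h4 : m * q ^ 2 / 32 + q / 2 = s := by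
    have : (m * q ^ 2 / 32 + q / 2 - s) * (1 / 2 + r) ^ 2 = 0 := by
      linear_combination (m / 32 * (q * (1 / 2 + r) + 2 * s) + (1 / 2 + r) / 2) * h3 - s * h1
    rcases mul_eq_zero.1 this with h | h
    · linarith
    · exact absurd h (by positivity)
  have h5 : q ≤ 3 := by nlinarith
  have h6 : -3 ≤ q := by nlinarith
  refine ⟨by unfold cdf; linarith, abs_le.2 ⟨?_, ?_⟩⟩
  · by_contra h
    have : 0 < (-1 - q) * (1 / 2 + m * (q - 1) / 32) := mul_pos (by linarith) (by nlinarith)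
    nlinarith
  · by_contra h
    have : 0 < (q - 1) * (1 / 2 + m * (q + 1) / 32) := mul_pos (by linarith) (by nlinarith)
    nlinarith

theorem cdf_inj {m : ℝ} (hm : |m| ≤ 1) : InjOn (cdf m) (Icc (-1) 1) := by
  intro a ha b hb h
  obtain ⟨m1, m2⟩ := abs_le.1 hm
  have : (a - b) * (1 / 2 + m * (a + b) / 32) = 0 := by unfold cdf at h; linear_combination h
  rcases mul_eq_zero.1 this with h | h
  · linarith
  · nlinarith [ha.1, ha.2, hb.1, hb.2]

theorem cdf_mem {m w : ℝ} (hm : |m| ≤ 1) (hw : w ∈ Icc (-1 : ℝ) 1) : cdf m w ∈ Icc (0 : ℝ) 1 := by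
  obtain ⟨m1, m2⟩ := abs_le.1 hm
  obtain ⟨w1, w2⟩ := hw
  have h1 : 0 ≤ (w + 1) * (1 / 2 + m * (w - 1) / 32) := mul_nonneg (by linarith) (by nlinarith)
  have h2 : 0 ≤ (1 - w) * (1 / 2 + m * (w + 1) / 32) := mul_nonneg (by linarith) (by nlinarith)
  unfold cdf
  constructor <;> nlinarith

theorem cdf_image {m : ℝ} (hm : |m| ≤ 1) : cdf m '' Icc (-1) 1 = Icc 0 1 :=
  Subset.antisymm (image_subset_iff.2 fun _ hw => cdf_mem hm hw)
    fun _ hu => ⟨_, abs_le.1 (Q_spec hm hu).2, (Q_spec hm hu).1⟩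

theorem Q_cdf {m w : ℝ} (hm : |m| ≤ 1) (hw : w ∈ Icc (-1 : ℝ) 1) : Q m (cdf m w) = w :=
  cdf_inj hm (abs_le.1 (Q_spec hm (cdf_mem hm hw)).2) hw (Q_spec hm (cdf_mem hm hw)).1

theorem Q_lip {m m' u : ℝ} (hm : |m| ≤ 1) (hm' : |m'| ≤ 1) (hu : u ∈ Icc (0 : ℝ) 1) :
    |Q m u - Q m' u| ≤ |m - m'| / 8 := by
  obtain ⟨a1, a2⟩ := Q_spec hm hu
  obtain ⟨b1, b2⟩ := Q_spec hm' hu
  generalize Q m u = q at *
  generalize Q m' u = q' at *
  obtain ⟨m1, m2⟩ := abs_le.1 hm
  obtain ⟨q1, q2⟩ := abs_le.1 a2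
  obtain ⟨q3, q4⟩ := abs_le.1 b2
  have e : (q - q') * (1 / 2 + m * (q + q') / 32) = (m - m') * ((1 - q' ^ 2) / 32) := by
    unfold cdf at a1 b1; linear_combination a1 - b1
  have e1 := congrArg abs e
  rw [abs_mul, abs_mul, abs_of_nonneg (a := 1 / 2 + _) (by nlinarith),
    abs_of_nonneg (a := (1 - q' ^ 2) / 32) (by nlinarith)] at e1
  have h1 : |q - q'| * (1 / 4) ≤ |q - q'| * (1 / 2 + m * (q + q') / 32) :=
    mul_le_mul_of_nonneg_left (by nlinarith) (abs_nonneg _)
  have h2 : |m - m'| * ((1 - q' ^ 2) / 32) ≤ |m - m'| * (1 / 32) :=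
    mul_le_mul_of_nonneg_left (by nlinarith) (abs_nonneg _)
  linarith

@[fun_prop] theorem measurable_Q {Ω : Type} [MeasurableSpace Ω] {f g : Ω → ℝ} (hf : Measurable f)
    (hg : Measurable g) : Measurable fun ω => Q (f ω) (g ω) := by
  unfold Q; fun_prop

theorem cdf_deriv (m w : ℝ) : HasDerivAt (cdf m) ((1 + m * w / 8) / 2) w := by
  have := (((hasDerivAt_id w).add_const 1).div_const 2).fun_add
    ((((hasDerivAt_pow 2 w).sub_const 1).const_mul m).div_const 32)
  exact HasDerivAt.congr_deriv this (by simp; ring)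

theorem dens_pos {m w : ℝ} (hm : |m| ≤ 1) (hw : |w| ≤ 1) : 0 < 1 + m * w / 8 := by
  obtain ⟨m1, m2⟩ := abs_le.1 hm
  obtain ⟨w1, w2⟩ := abs_le.1 hw
  nlinarith

theorem lintegral_Q {m : ℝ} (hm : |m| ≤ 1) {g : ℝ → ℝ≥0∞} (hg : Measurable g) :
    ∫⁻ u : I, g (Q m u) = ∫⁻ w in Icc (-1 : ℝ) 1, ENNReal.ofReal ((1 + m * w / 8) / 2) * g w := by
  have h1 := unitInterval.measurePreserving_coe.lintegral_comp (f := fun u => g (Q m u))
    (by fun_prop)
  rw [h1, unitInterval, ← cdf_image hm, lintegral_image_eq_lintegral_abs_deriv_mul measurableSet_Icc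
    (fun w _ => (cdf_deriv m w).hasDerivWithinAt) (cdf_inj hm)]
  refine setLIntegral_congr_fun measurableSet_Icc fun w hw => ?_
  beta_reduce
  rw [Q_cdf hm hw, abs_of_pos (half_pos (dens_pos hm (abs_le.2 hw)))]

/-- One step of the filter. -/
theorem lintegral_tilt {m s : ℝ} (hm : |m| ≤ 1) (hs : |s| ≤ 1) {g : ℝ → ℝ≥0∞} (hg : Measurable g) :
    ∫⁻ u : I, ENNReal.ofReal ((1 + s * Q m u / 8) / (1 + m * Q m u / 8)) * g (Q m u) =
      ∫⁻ u : I, g (Q s u) := by
  rw [lintegral_Q hs hg,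
    lintegral_Q hm (g := fun w => ENNReal.ofReal ((1 + s * w / 8) / (1 + m * w / 8)) * g w)
      (by fun_prop)]
  refine setLIntegral_congr_fun measurableSet_Icc fun w hw => ?_
  beta_reduce
  have := dens_pos hm (abs_le.2 hw)
  rw [← mul_assoc, ← ENNReal.ofReal_mul (half_pos this).le]
  congr 2
  rw [div_mul_comm, div_mul_eq_mul_div _ 2, div_mul_cancel₀ _ this.ne']

theorem integral_Q {m : ℝ} (hm : |m| ≤ 1) : ∫ u : I, Q m u = m / 24 := by
  have h1 := unitInterval.measurePreserving_coe.integral_comp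
    unitInterval.measurableEmbedding_coe (fun u => Q m u)
  rw [h1, unitInterval, ← cdf_image hm, integral_image_eq_integral_abs_deriv_smul measurableSet_Icc
    (fun w _ => (cdf_deriv m w).hasDerivWithinAt) (cdf_inj hm),
    setIntegral_congr_fun (g := fun w => 1 / 2 * w + m / 16 * w ^ 2) measurableSet_Icc,
    integral_Icc_eq_integral_Ioc, ← intervalIntegral.integral_of_le (by norm_num),
    intervalIntegral.integral_add, intervalIntegral.integral_const_mul,
    intervalIntegral.integral_const_mul, integral_id, integral_pow]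
  · ring
  · exact Continuous.intervalIntegrable (by fun_prop) _ _
  · exact Continuous.intervalIntegrable (by fun_prop) _ _
  · intro w hw
    beta_reduce
    rw [Q_cdf hm hw, abs_of_pos (half_pos (dens_pos hm (abs_le.2 hw))), smul_eq_mul]
    ring

/-- The log-likelihood ratio of one observation. -/
noncomputable def llr (w : ℝ) : ℝ := Real.log (1 + w / 8) - Real.log (1 - w / 8)

theorem exp_llr {w : ℝ} (hw : |w| ≤ 1) : Real.exp (llr w) * (1 - w / 8) = 1 + w / 8 := by
  obtain ⟨w1, w2⟩ := abs_le.1 hw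
  have : 0 < 1 - w / 8 := by linarith
  rw [llr, Real.exp_sub, Real.exp_log (by linarith), Real.exp_log this, div_mul_cancel₀ _ this.ne']

theorem log_lip {a b : ℝ} (ha : 1 / 2 ≤ a) (hb : 1 / 2 ≤ b) :
    Real.log a - Real.log b ≤ 2 * |a - b| := by
  rw [← Real.log_div (by linarith) (by linarith)]
  refine (Real.log_le_sub_one_of_pos (div_pos (by linarith) (by linarith))).trans ?_
  rw [div_sub_one (by linarith), div_le_iff₀ (by linarith)]
  nlinarith [le_abs_self (a - b), abs_nonneg (a - b)]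

theorem llr_lip {w w' : ℝ} (hw : |w| ≤ 1) (hw' : |w'| ≤ 1) : |llr w - llr w'| ≤ |w - w'| / 2 := by
  obtain ⟨w1, w2⟩ := abs_le.1 hw
  obtain ⟨w3, w4⟩ := abs_le.1 hw'
  have e : ∀ a b : ℝ, (a - b = (w - w') / 8 ∨ a - b = -((w - w') / 8)) → |a - b| = |w - w'| / 8 := by
    rintro a b (h | h) <;> rw [h] <;> simp [abs_div]
  have h1 := log_lip (a := 1 + w / 8) (b := 1 + w' / 8) (by linarith) (by linarith)
  have h2 := log_lip (a := 1 + w' / 8) (b := 1 + w / 8) (by linarith) (by linarith)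
  have h3 := log_lip (a := 1 - w / 8) (b := 1 - w' / 8) (by linarith) (by linarith)
  have h4 := log_lip (a := 1 - w' / 8) (b := 1 - w / 8) (by linarith) (by linarith)
  rw [e _ _ (by first | (left; ring1) | (right; ring1))] at h1 h2 h3 h4
  unfold llr
  rw [abs_le]
  constructor <;> linarith

@[fun_prop] theorem measurable_llr : Measurable llr := by
  unfold llr; fun_prop

/-- The running sums are not yet on the correct side after time `j`. -/
def Bad (j : ℕ) (s : ℝ) (w : ℕ → ℝ) : Prop :=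
  ∃ i ≥ j, s * ∑ k ∈ Finset.range i, w k ≤ i / 48

theorem measurable_Bad {Ω : Type} [MeasurableSpace Ω] (j : ℕ) (s : ℝ) {w : Ω → ℕ → ℝ}
    (hw : ∀ k, Measurable fun ω => w ω k) : MeasurableSet {ω | Bad j s (w ω)} := by
  refine measurableSet_setOfPred.2 (Measurable.exists fun i => measurable_const.and ?_)
  exact measurableSet_setOfPred.1 (measurableSet_le (by fun_prop) measurable_const)

instance (V : Type) : IsProbabilityMeasure (iid V) := by unfold iid; infer_instance

theorem tendsto_Bad {s : ℝ} (hs : s = 1 ∨ s = -1) :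
    Tendsto (fun j => iid ℕ {u | Bad j s fun k => Q s (u k)}) atTop (𝓝 0) := by
  have hs1 : |s| ≤ 1 := by rcases hs with h | h <;> simp [h]
  have mX : Measurable fun u : I => Q s u := by fun_prop
  have ev : ∀ i, MeasurePreserving (fun u : ℕ → I => u i) (iid ℕ) volume := fun i =>
    measurePreserving_eval_infinitePi (fun _ : ℕ => (volume : Measure I)) i
  have id1 : ∀ i, IdentDistrib (fun u : ℕ → I => Q s (u i)) (fun u : I => Q s u) (iid ℕ) volume :=
    fun i => IdentDistrib.comp (u := fun u : I => Q s u)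
      ⟨(ev i).measurable.aemeasurable, aemeasurable_id, by rw [(ev i).map_eq, Measure.map_id']⟩ mX
  have h := strong_law_ae_real (μ := iid ℕ) (fun i u => Q s (u i))
    (Integrable.of_bound (Measurable.aestronglyMeasurable (by fun_prop)) 1 (ae_of_all _ fun u => (Q_spec hs1 (u 0).2).2))
    (fun i j hij => (iIndepFun_infinitePi (X := fun (_ : ℕ) (u : I) => Q s u)
      fun _ => mX).indepFun hij)
    (fun i => (id1 i).trans (id1 0).symm)
  rw [(id1 0).integral_eq, integral_Q hs1] at h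
  have := tendsto_measure_of_ae_tendsto_indicator_of_isFiniteMeasure atTop (μ := iid ℕ)
    (A := ∅) (As := fun j => {u | Bad j s fun k => Q s (u k)}) .empty
    (fun j => measurable_Bad j s (by fun_prop)) (h.mono fun u hu => ?_)
  · simpa using this
  have h2 := (hu.const_mul s).eventually (lt_mem_nhds (a := 1 / 48)
    (by rcases hs with h | h <;> rw [h] <;> norm_num))
  obtain ⟨N, hN⟩ := eventually_atTop.1 (h2.and (eventually_gt_atTop 0))
  filter_upwards [eventually_ge_atTop N] with j hj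
  simp only [mem_setOf_eq, mem_empty_iff_false, iff_false]
  rintro ⟨i, hi, h3⟩
  obtain ⟨h4, h5⟩ := hN i (hj.trans hi)
  have : (0 : ℝ) < i := by exact_mod_cast h5
  rw [← mul_div_assoc, lt_div_iff₀ this] at h4
  linarith

end Vale.Agent.P143
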