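import Vale.Agent.P143.Prob

/-!
Decoding the signs from the limiting observations.
-/

open MeasureTheory ProbabilityTheory Filter Topology Finset Function
open scoped unitInterval ENNReal Classical

namespace Vale.Agent.P143

variable {K D : Type}

noncomputable def sm (w : D × ℕ → ℝ) (d : D) (i : ℕ) : ℝ := ∑ k ∈ range i, w (d, k)

def dec (w : D × ℕ → ℝ) (d : D) : Prop := ∀ᶠ i in atTop, 0 < sm w d i

theorem measurable_sm (d : D) (i : ℕ) : Measurable fun w : D × ℕ → ℝ => sm w d i := by
  unfold sm; fun_prop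

theorem measurable_dec (d : D) : Measurable fun w : D × ℕ → ℝ => dec w d := by
  simp only [dec, eventually_atTop]
  exact Measurable.exists fun _ => Measurable.forall fun i => measurable_const.imp
    (measurableSet_setOfPred.1 (measurableSet_lt measurable_const (measurable_sm d i)))

noncomputable def sg (t : Finset D) (d : D) : ℝ := if d ∈ t then 1 else -1

noncomputable def obs (κ : D × ℕ → K) (t : Finset D) (ω : K → I) (j : D × ℕ) : ℝ :=
  Q (sg t j.1) (ω (κ j))

noncomputable def eps (j : ℕ) : ℝ :=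
  (iid ℕ).real {u | Bad j 1 fun k => Q 1 (u k)} + (iid ℕ).real {u | Bad j (-1) fun k => Q (-1) (u k)}

theorem tendsto_eps : Tendsto eps atTop (𝓝 0) := by
  have h := fun s hs => (ENNReal.tendsto_toReal ENNReal.zero_ne_top).comp (tendsto_Bad (s := s) hs)
  unfold eps
  simpa [Measure.real] using (h 1 (Or.inl rfl)).add (h (-1) (Or.inr rfl))

theorem bad_le {κ : D × ℕ → K} {d : D} (h : Injective fun k => κ (d, k)) (t : Finset D) (j : ℕ) :
    (iid K).real {ω | Bad j (sg t d) fun k => obs κ t ω (d, k)} ≤ eps j := by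
  have e : (iid K).real {ω | Bad j (sg t d) fun k => obs κ t ω (d, k)} =
      (iid ℕ).real {u | Bad j (sg t d) fun k => Q (sg t d) (u k)} := by
    have := Measure.map_infinitePi_infinitePi_of_inj (P := fun _ : K => (volume : Measure I)) h
    unfold iid
    rw [← this, map_measureReal_apply (by fun_prop) (measurable_Bad _ _ (by fun_prop))]
    rfl
  rw [e, eps, sg]
  split_ifs
  · exact le_add_of_nonneg_right measureReal_nonneg
  · exact le_add_of_nonneg_left measureReal_nonneg

theorem real_sub_le {Ω : Type} [MeasurableSpace Ω] {μ : Measure Ω} [IsProbabilityMeasure μ]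
    {A B C : Set Ω} (h : ∀ ω, ω ∉ C → (ω ∈ A ↔ ω ∈ B)) : |μ.real A - μ.real B| ≤ μ.real C := by
  have k : ∀ {A B : Set Ω}, (∀ ω, ω ∉ C → ω ∈ A → ω ∈ B) → μ.real A ≤ μ.real B + μ.real C :=
    fun h => (measureReal_mono fun ω h1 => (em (ω ∈ C)).elim Or.inr fun h2 =>
      Or.inl (h ω h2 h1)).trans (measureReal_union_le _ _)
  have h1 := k fun ω h1 => (h ω h1).1
  have h2 := k fun ω h1 => (h ω h1).2
  rw [abs_le]
  constructor <;> linarith

theorem decode {F : Finset D} {κ : D × ℕ → K} (hκ : ∀ d ∈ F, Injective fun k => κ (d, k))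
    {Ev : (D → Prop) → Prop} (hEv : ∀ P P', (∀ d ∈ F, P d ↔ P' d) → (Ev P ↔ Ev P'))
    (mEv : ∀ P : (D × ℕ → ℝ) → D → Prop, (∀ d, Measurable fun w => P w d) →
      Measurable fun w => Ev (P w))
    {W : ℕ → (K → I) → D × ℕ → ℝ} {W' : (K → I) → D × ℕ → ℝ} (mW : ∀ n, Measurable (W n))
    (mW' : Measurable W') (hW : ∀ ω j, Tendsto (fun n => W n ω j) atTop (𝓝 (W' ω j)))
    {T : ℕ → Finset (Finset D)} (hT : ∀ n, (T n).Nonempty)
    (law : ∀ᶠ n in atTop, ∀ N, ∀ E : Set (D × ℕ → ℝ), MeasurableSet E →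
      (∀ w w', (∀ d ∈ F, ∀ k < N, w (d, k) = w' (d, k)) → (w ∈ E ↔ w' ∈ E)) →
      (iid K).real (W n ⁻¹' E) = (∑ t ∈ T n, (iid K).real (obs κ t ⁻¹' E)) / (T n).card) :
    Tendsto (fun n => (((T n).filter fun t => Ev (· ∈ t)).card : ℝ) / (T n).card) atTop
      (𝓝 ((iid K).real {ω | Ev (dec (W' ω))})) := by
  have cT : ∀ n, (0 : ℝ) < (T n).card := fun n => by exact_mod_cast (hT n).card_pos
  have smc : ∀ {N} {w w' : D × ℕ → ℝ}, (∀ d ∈ F, ∀ k < N, w (d, k) = w' (d, k)) → ∀ d ∈ F,
      ∀ i ≤ N, sm w d i = sm w' d i := fun h d hd i hi =>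
    sum_congr rfl fun k hk => h d hd k ((mem_range.1 hk).trans_le hi)
  have smt : ∀ ω d i, Tendsto (fun n => sm (W n ω) d i) atTop (𝓝 (sm (W' ω) d i)) :=
    fun ω d i => tendsto_finset_sum _ fun k _ => hW ω _
  rw [Metric.tendsto_nhds]
  intro η hη
  obtain ⟨j, hj, j0⟩ := (((tendsto_eps.const_mul (F.card : ℝ)).eventually
    (gt_mem_nhds (a := η / 4) (by simpa using hη))).and (eventually_gt_atTop 0)).exists
  let O : D → ℕ → Set (D × ℕ → ℝ) := fun d N =>
    {w | (∃ i ≥ j, i ≤ N ∧ sm w d i < i / 48) ∧ ∃ i ≥ j, i ≤ N ∧ -sm w d i < i / 48}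
  have mO : ∀ d N, MeasurableSet (O d N) := fun d N => by
    refine measurableSet_setOfPred.2 (Measurable.and ?_ ?_) <;>
    refine Measurable.exists fun i => measurable_const.and (measurable_const.and
      (measurableSet_setOfPred.1 (measurableSet_lt ?_ measurable_const)))
    exacts [measurable_sm d i, (measurable_sm d i).neg]
  have a1 : ∀ d ∈ F, ∀ N, (iid K).real (W' ⁻¹' O d N) ≤ eps j := by
    intro d hd N
    have h1 := (ENNReal.tendsto_toReal (measure_ne_top _ _)).comp
      (tendsto_measure_of_tendsto_indicator_of_isFiniteMeasure atTop (iid K)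
        (A := W' ⁻¹' O d N) (As := fun n => W' ⁻¹' O d N ∩ W n ⁻¹' O d N)
        (fun n => (mW' (mO d N)).inter (mW n (mO d N))) fun ω => ?_)
    · refine le_of_tendsto h1 (law.mono fun n hn => ?_)
      refine (measureReal_mono Set.inter_subset_right).trans ?_
      rw [hn N _ (mO d N) fun w w' h => ?_, div_le_iff₀ (cT n), mul_comm, ← nsmul_eq_mul]
      · refine sum_le_card_nsmul _ _ _ fun t _ => le_trans (measureReal_mono ?_)
          (bad_le (hκ d hd) t j)
        rintro ω ⟨⟨i, h1, -, h2⟩, i', h3, -, h4⟩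
        by_cases h : d ∈ t
        · exact ⟨i, h1, by rw [sg, if_pos h, one_mul]; exact h2.le⟩
        · exact ⟨i', h3, by rw [sg, if_neg h, neg_one_mul]; exact h4.le⟩
      · refine and_congr ?_ ?_ <;>
        exact exists_congr fun i => and_congr_right fun _ => and_congr_right fun hi => by
          rw [smc h d hd i hi]
    · by_cases h : ω ∈ W' ⁻¹' O d N
      · obtain ⟨⟨i, h1, h2, h3⟩, i', h4, h5, h6⟩ := id h
        filter_upwards [(smt ω d i).eventually (gt_mem_nhds h3),
          (smt ω d i').neg.eventually (gt_mem_nhds h6)] with n h7 h8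
        exact ⟨fun h => h.1, fun h => ⟨h, ⟨i, h1, h2, h7⟩, i', h4, h5, h8⟩⟩
      · exact Eventually.of_forall fun n => ⟨fun h => h.1, fun h' => absurd h' h⟩
  let C : Set (K → I) := ⋃ d ∈ F, ⋃ N, W' ⁻¹' O d N
  have mC : MeasurableSet C := F.measurableSet_biUnion fun d _ => .iUnion fun N => mW' (mO d N)
  have a2 : (iid K).real C ≤ F.card * eps j := by
    refine (measureReal_biUnion_finset_le _ _).trans ?_
    rw [← nsmul_eq_mul]
    refine sum_le_card_nsmul _ _ _ fun d hd => ?_
    refine le_of_tendsto' ((ENNReal.tendsto_toReal (measure_ne_top _ _)).comp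
      (tendsto_measure_iUnion_atTop ?_)) (a1 d hd)
    rintro N N' h ω ⟨⟨i, h1, h2, h3⟩, i', h4, h5, h6⟩
    exact ⟨⟨i, h1, h2.trans h, h3⟩, i', h4, h5.trans h, h6⟩
  let B : Set (D × ℕ → ℝ) := {w | Ev fun d => 0 < sm w d j}
  have mB : MeasurableSet B := measurableSet_setOfPred.2 (mEv _ fun d =>
    measurableSet_setOfPred.1 (measurableSet_lt measurable_const (measurable_sm d j)))
  have a3 : ∀ ω, ω ∉ C → ∀ d ∈ F, ∀ᶠ n in atTop, 0 < sm (W n ω) d j ↔ dec (W' ω) d := by
    intro ω h d hd
    have h1 : ∀ i ≥ j, ∀ i' ≥ j, (i : ℝ) / 48 ≤ sm (W' ω) d i ∨ sm (W' ω) d i' ≤ -(i' / 48) := by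
      intro i hi i' hi'
      by_contra hc
      push Not at hc
      exact h (Set.mem_biUnion hd (Set.mem_iUnion.2 ⟨max i i', ⟨i, hi, le_max_left _ _, hc.1⟩,
        i', hi', le_max_right _ _, by linarith [hc.2]⟩))
    have p : ∀ i ≥ j, (0 : ℝ) < i / 48 := fun i hi =>
      div_pos (by exact_mod_cast j0.trans_le hi) (by norm_num)
    rcases h1 j le_rfl j le_rfl with h2 | h2
    · have h3 : dec (W' ω) d := (eventually_ge_atTop j).mono fun i hi => by
        rcases h1 i hi j le_rfl with h | h <;> linarith [p i hi, p j le_rfl]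
      filter_upwards [(smt ω d j).eventually (lt_mem_nhds ((p j le_rfl).trans_le h2))] with n hn
      exact iff_of_true hn h3
    · have h3 : ¬dec (W' ω) d := fun h3 => by
        obtain ⟨i, h4, hi⟩ := (h3.and (eventually_ge_atTop j)).exists
        rcases h1 j le_rfl i hi with h | h <;> linarith [p i hi, p j le_rfl]
      filter_upwards [(smt ω d j).eventually (gt_mem_nhds (a := 0) (by linarith [p j le_rfl]))]
        with n hn
      exact iff_of_false hn.not_gt h3
  have a4 := (ENNReal.tendsto_toReal (measure_ne_top _ _)).comp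
    (tendsto_measure_of_tendsto_indicator_of_isFiniteMeasure atTop (iid K)
      (A := {ω | Ev (dec (W' ω))} \ C) (As := fun n => W n ⁻¹' B \ C)
      (fun n => (mW n mB).diff mC) fun ω => by
        by_cases h : ω ∈ C
        · simp [h]
        · filter_upwards [(eventually_all_finset F).2 (a3 ω h)] with n hn
          exact and_congr_left' (hEv _ _ hn))
  filter_upwards [law, Metric.tendsto_nhds.1 a4 (η / 4) (by positivity)] with n hn b1
  have b2 := real_sub_le (μ := iid K) (A := W n ⁻¹' B \ C) (B := W n ⁻¹' B) (C := C)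
    fun ω h => and_iff_left h
  have b3 := real_sub_le (μ := iid K) (A := {ω | Ev (dec (W' ω))} \ C)
    (B := {ω | Ev (dec (W' ω))}) (C := C) fun ω h => and_iff_left h
  have b4 : |(iid K).real (W n ⁻¹' B) -
      (((T n).filter fun t => Ev (· ∈ t)).card : ℝ) / (T n).card| ≤ F.card * eps j := by
    rw [hn j B mB fun w w' h => hEv _ _ fun d hd => by rw [smc h d hd j le_rfl], ← sub_div,
      abs_div, abs_of_pos (cT n), div_le_iff₀ (cT n), mul_comm, ← nsmul_eq_mul, card_filter]
    push_cast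
    rw [← sum_sub_distrib]
    refine (abs_sum_le_sum_abs _ _).trans (sum_le_card_nsmul _ _ _ fun t _ => ?_)
    have e : (if Ev (· ∈ t) then 1 else 0 : ℝ) = (iid K).real {_ω | Ev (· ∈ t)} := by
      split_ifs with h <;> simp [h]
    rw [e]
    refine (real_sub_le (C := ⋃ d ∈ F, {ω | Bad j (sg t d) fun k => obs κ t ω (d, k)})
      fun ω h => hEv _ _ fun d hd => ?_).trans ((measureReal_biUnion_finset_le _ _).trans ?_)
    · have h1 : (j : ℝ) / 48 < sg t d * sm (obs κ t ω) d j :=
        not_le.1 fun h1 => h (Set.mem_biUnion hd ⟨j, le_rfl, h1⟩)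
      have h2 : (0 : ℝ) ≤ j / 48 := by positivity
      unfold sg at h1
      split_ifs at h1 with h3
      · exact iff_of_true (by linarith) h3
      · exact iff_of_false (by linarith) h3
    · rw [← nsmul_eq_mul]
      exact sum_le_card_nsmul _ _ _ fun d hd => bad_le (hκ d hd) t j
  have b1' : |(iid K).real (W n ⁻¹' B \ C) - (iid K).real ({ω | Ev (dec (W' ω))} \ C)| < η / 4 := b1
  rw [Real.dist_eq, abs_lt]
  rw [abs_lt] at b1'
  rw [abs_le] at b2 b3 b4
  constructor <;> linarith

end Vale.Agent.P143
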