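import Mathlib

/-!
Definitions used in the statement of P143 (the free uniform spanning forest is a factor of IID).
-/

open MeasureTheory Filter Topology
open scoped unitInterval

namespace Vale.Agent.P143

variable {V : Type}

/-- An increasing sequence of finite connected subgraphs with union `G`. -/
def IsExhaustion (G : SimpleGraph V) (H : ℕ → G.Subgraph) : Prop :=
  (∀ n, (H n).verts.Finite ∧ (H n).Connected) ∧ Monotone H ∧ ⨆ n, H n = ⊤

/-- The spanning trees of a subgraph `H`. -/
def spanningTrees {G : SimpleGraph V} (H : G.Subgraph) : Set G.Subgraph :=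
  {K | K ≤ H ∧ K.verts = H.verts ∧ K.coe.IsTree}

/-- The probability that, among the pairs in `F`, the edges of a uniform spanning tree of `H` are
exactly those lying in `A`. -/
noncomputable def ustProb {G : SimpleGraph V} (H : G.Subgraph) (F A : Finset (Sym2 V)) : ℝ :=
  ({K ∈ spanningTrees H | ∀ e ∈ F, e ∈ K.edgeSet ↔ e ∈ A}.ncard : ℝ) / (spanningTrees H).ncard

/-- `μ` is the free uniform spanning forest measure of `G`: exhaustions exist, and along every
exhaustion all cylinder probabilities of the uniform spanning trees converge to those of `μ`. -/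
def IsFUSF (G : SimpleGraph V) (μ : Measure (Sym2 V → Bool)) : Prop :=
  IsProbabilityMeasure μ ∧ (∃ H, IsExhaustion G H) ∧
    ∀ H, IsExhaustion G H → ∀ F A : Finset (Sym2 V),
      Tendsto (fun n => ustProb (H n) F A) atTop
        (𝓝 (μ.real {ω | ∀ e ∈ F, ω e = true ↔ e ∈ A}))

/-- The law of i.i.d. uniform labels of the vertices. -/
noncomputable def iid (V : Type) : Measure (V → I) := Measure.infinitePi fun _ => volume

end Vale.Agent.P143
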