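import Vale.Agent.P143.Res
import Vale.Agent.P143.Chan

/-!
The filtering equation and its unique bounded solution, obtained by Picard iteration.
-/

open Finset Filter Topology
open scoped Classical unitInterval

namespace Vale.Agent.P143

variable {V V' : Type}

/-- Accumulated log-likelihood ratios before the index `j`. -/
noncomputable def Xs (lt : (V × V) × ℕ → (V × V) × ℕ → Prop) (W : (V × V) × ℕ → ℝ)
    (j : (V × V) × ℕ) (f : V × V) : ℝ :=
  ∑ l ∈ range (j.2 + 1), if lt (f, l) j then llr (W (f, l)) else 0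

noncomputable def post (act : V × V → Prop) (lt : (V × V) × ℕ → (V × V) × ℕ → Prop)
    (W : (V × V) × ℕ → ℝ) (j : (V × V) × ℕ) : ℝ :=
  2 * minf act (Xs lt W j) j.1 - 1

noncomputable def iter (act : V × V → Prop) (lt : (V × V) × ℕ → (V × V) × ℕ → Prop)
    (z : (V × V) × ℕ → I) : ℕ → (V × V) × ℕ → ℝ
  | 0 => fun _ => 0
  | t + 1 => fun j => Q (post act lt (iter act lt z t) j) (z j)

noncomputable def Wfix (act : V × V → Prop) (lt : (V × V) × ℕ → (V × V) × ℕ → Prop)
    (z : (V × V) × ℕ → I) (j : (V × V) × ℕ) : ℝ :=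
  limUnder atTop fun t => iter act lt z t j

variable {act : V × V → Prop} {lt : (V × V) × ℕ → (V × V) × ℕ → Prop} {z z' : (V × V) × ℕ → I}

theorem post_abs (W : (V × V) × ℕ → ℝ) (j : (V × V) × ℕ) : |post act lt W j| ≤ 1 := by
  have h1 := minf_nonneg act (Xs lt W j) j.1
  have h2 := minf_le_one act (Xs lt W j) j.1
  unfold post
  rw [abs_le]
  constructor <;> linarith

theorem iter_abs (t : ℕ) (j : (V × V) × ℕ) : |iter act lt z t j| ≤ 1 := by
  cases t with
  | zero => simp [iter]
  | succ t => exact (Q_spec (post_abs _ _) (z j).2).2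

theorem step_lip {W W' : (V × V) × ℕ → ℝ} (h1 : ∀ j, |W j| ≤ 1) (h2 : ∀ j, |W' j| ≤ 1)
    {j : (V × V) × ℕ} {c : ℝ} (hc : 0 ≤ c) (u : I)
    (h : ∀ f l, f = j.1 ∨ act f → l ≤ j.2 → lt (f, l) j → |W (f, l) - W' (f, l)| ≤ c * 2 ^ l) :
    |Q (post act lt W j) u - Q (post act lt W' j) u| ≤ c / 2 * 2 ^ j.2 := by
  have k := minf_lip (act := act) (x := Xs lt W j) (x' := Xs lt W' j) (d := j.1)
    (η := c * 2 ^ j.2) fun f hf => by
      unfold Xs
      rw [← sum_sub_distrib]
      refine (abs_sum_le_sum_abs _ _).trans ((sum_le_sum (g := fun l => c / 2 * 2 ^ l)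
        fun l hl => ?_).trans ?_)
      · split_ifs with h3
        · linarith [llr_lip (h1 (f, l)) (h2 (f, l)), h f l hf (Nat.lt_succ_iff.1 (mem_range.1 hl)) h3]
        · rw [sub_self, abs_zero]; positivity
      · rw [← mul_sum, geom_sum_eq (by norm_num), pow_succ]
        nlinarith
  refine (Q_lip (post_abs _ _) (post_abs _ _) u.2).trans ?_
  have : post act lt W j - post act lt W' j =
      2 * (minf act (Xs lt W j) j.1 - minf act (Xs lt W' j) j.1) := by unfold post; ring
  rw [this, abs_mul, abs_two]
  linarith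

theorem iter_succ (t : ℕ) (j : (V × V) × ℕ) :
    |iter act lt z t j - iter act lt z (t + 1) j| ≤ (1 / 2) ^ t * 2 ^ j.2 := by
  induction t generalizing j with
  | zero =>
    have := iter_abs (act := act) (lt := lt) (z := z) 1 j
    rw [show iter act lt z 0 j = 0 from rfl, zero_sub, abs_neg, pow_zero, one_mul]
    exact this.trans (one_le_pow₀ one_le_two)
  | succ t ih =>
    refine (step_lip (iter_abs t) (iter_abs (t + 1)) (c := (1 / 2) ^ t) (by positivity) (z j)
      fun f l _ _ _ => ih (f, l)).trans (le_of_eq ?_)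
    ring

theorem iter_tendsto (j : (V × V) × ℕ) :
    Tendsto (fun t => iter act lt z t j) atTop (𝓝 (Wfix act lt z j)) :=
  (cauchySeq_of_le_geometric (1 / 2) (2 ^ j.2) (by norm_num) fun t => by
    rw [mul_comm]; exact iter_succ t j).tendsto_limUnder

theorem iter_dist (t : ℕ) (j : (V × V) × ℕ) :
    |iter act lt z t j - Wfix act lt z j| ≤ 2 * (1 / 2) ^ t * 2 ^ j.2 := by
  have := dist_le_of_le_geometric_of_tendsto (1 / 2) (2 ^ j.2) (by norm_num)
    (fun t => by rw [mul_comm]; exact iter_succ t j) (iter_tendsto (act := act) (lt := lt) (z := z) j) t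
  rw [Real.dist_eq] at this
  exact this.trans (le_of_eq (by ring))

theorem Wfix_abs (j : (V × V) × ℕ) : |Wfix act lt z j| ≤ 1 :=
  le_of_tendsto' (iter_tendsto j).abs fun t => iter_abs t j

theorem Wfix_eq (j : (V × V) × ℕ) :
    Wfix act lt z j = Q (post act lt (Wfix act lt z) j) (z j) := by
  refine tendsto_nhds_unique ((iter_tendsto j).comp (tendsto_add_atTop_nat 1)) ?_
  rw [tendsto_iff_dist_tendsto_zero]
  have h : Tendsto (fun t : ℕ => 2 * (1 / 2 : ℝ) ^ t / 2 * 2 ^ j.2) atTop (𝓝 (2 * 0 / 2 * 2 ^ j.2)) :=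
    (((tendsto_pow_atTop_nhds_zero_of_lt_one (by norm_num) (by norm_num)).const_mul 2).div_const
      2).mul_const _
  refine squeeze_zero (fun _ => dist_nonneg) (fun t => ?_) (by simpa using h)
  have := step_lip (act := act) (lt := lt) (iter_abs t) Wfix_abs (j := j) (c := 2 * (1 / 2) ^ t)
    (by positivity) (z j) fun f l _ _ _ => iter_dist (act := act) (lt := lt) (z := z) t (f, l)
  simpa [Real.dist_eq, iter] using this

theorem Wfix_causal {L : (V × V) × ℕ → Prop} (hz : ∀ j, L j → z j = z' j)
    (hL : ∀ j, L j → ∀ f l, f = j.1 ∨ act f → l ≤ j.2 → lt (f, l) j → L (f, l))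
    {j : (V × V) × ℕ} (hj : L j) : Wfix act lt z j = Wfix act lt z' j := by
  have : ∀ t j, L j → iter act lt z t j = iter act lt z' t j := by
    intro t
    induction t with
    | zero => exact fun _ _ => rfl
    | succ t ih =>
      intro j hj
      have := step_lip (act := act) (lt := lt) (W := iter act lt z t) (W' := iter act lt z' t)
        (iter_abs t) (iter_abs t)
        (j := j) le_rfl (z j) fun f l h1 h2 h3 => by rw [ih _ (hL j hj f l h1 h2 h3)]; simp
      simp only [iter]
      rw [← hz j hj]
      simpa [sub_eq_zero] using this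
  unfold Wfix
  simp only [this _ j hj]

theorem Wfix_tendsto {H : ℕ → Finset (V × V)} (hm : Monotone H)
    (h1 : ∀ n, ∀ f ∈ H n, act f) (h2 : ∀ f, act f → ∃ n, f ∈ H n) (j : (V × V) × ℕ) :
    Tendsto (fun n => Wfix (fun f => f ∈ H n) lt z j) atTop (𝓝 (Wfix act lt z j)) := by
  have key : ∀ t j, Tendsto (fun n => iter (fun f => f ∈ H n) lt z t j) atTop
      (𝓝 (iter act lt z t j)) := by
    intro t
    induction t with
    | zero => exact fun _ => tendsto_const_nhds
    | succ t ih =>
      intro j
      have a1 : ∀ i, Tendsto (fun n => llr (iter (fun f => f ∈ H n) lt z t i)) atTop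
          (𝓝 (llr (iter act lt z t i))) := fun i => by
        rw [tendsto_iff_dist_tendsto_zero]
        refine squeeze_zero (fun _ => dist_nonneg) (fun n => llr_lip (iter_abs _ _) (iter_abs _ _)) ?_
        simpa [Real.dist_eq] using (tendsto_iff_dist_tendsto_zero.1 (ih i)).div_const 2
      have a2 := tendsto_mfin hm h1 h2 (xs := fun n => Xs lt (iter (fun f => f ∈ H n) lt z t) j)
        (x := Xs lt (iter act lt z t) j) (B := ∑ l ∈ range (j.2 + 1), 1)
        (fun f => tendsto_finset_sum _ fun l _ => by
          split_ifs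
          exacts [a1 _, tendsto_const_nhds])
        (fun n f => by
          unfold Xs
          rw [← sum_sub_distrib]
          refine (abs_sum_le_sum_abs _ _).trans (sum_le_sum fun l _ => ?_)
          split_ifs
          · have b1 := iter_abs (act := fun f => f ∈ H n) (lt := lt) (z := z) t (f, l)
            have b2 := iter_abs (act := act) (lt := lt) (z := z) t (f, l)
            linarith [llr_lip b1 b2, abs_sub _ _ |>.trans (add_le_add b1 b2)]
          · simp) j.1
      rw [tendsto_iff_dist_tendsto_zero]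
      refine squeeze_zero (fun _ => dist_nonneg)
        (fun n => Q_lip (post_abs _ _) (post_abs _ _) (z j).2) ?_
      have a3 := (tendsto_iff_dist_tendsto_zero.1 ((a2.const_mul 2).sub_const 1)).div_const 8
      simpa only [post, minf_finset, Real.dist_eq, zero_div] using a3
  rw [Metric.tendsto_nhds]
  intro ε hε
  have h : Tendsto (fun t : ℕ => 2 * (1 / 2 : ℝ) ^ t * 2 ^ j.2) atTop (𝓝 (2 * 0 * 2 ^ j.2)) :=
    ((tendsto_pow_atTop_nhds_zero_of_lt_one (by norm_num) (by norm_num)).const_mul 2).mul_const _
  obtain ⟨t, ht⟩ := (h.eventually (gt_mem_nhds (a := ε / 3) (by simpa using hε))).exists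
  filter_upwards [Metric.tendsto_nhds.1 (key t j) (ε / 3) (by positivity)] with n hn
  have b1 := iter_dist (act := fun f => f ∈ H n) (lt := lt) (z := z) t j
  have b2 := iter_dist (act := act) (lt := lt) (z := z) t j
  rw [Real.dist_eq, abs_lt] at *
  rw [abs_le] at b1 b2
  constructor <;> linarith

theorem measurable_Wfix [Countable V] {Ω : Type} [MeasurableSpace Ω] {act : Ω → V × V → Prop}
    {lt : Ω → (V × V) × ℕ → (V × V) × ℕ → Prop} {z : Ω → (V × V) × ℕ → I}
    (ha : ∀ f, Measurable fun ω => act ω f) (hl : ∀ i j, Measurable fun ω => lt ω i j)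
    (hz : ∀ j, Measurable fun ω => z ω j) (j : (V × V) × ℕ) :
    Measurable fun ω => Wfix (act ω) (lt ω) (z ω) j := by
  have key : ∀ t j, Measurable fun ω => iter (act ω) (lt ω) (z ω) t j := by
    intro t
    induction t with
    | zero => exact fun _ => measurable_const
    | succ t ih =>
      intro j
      refine measurable_Q ((Measurable.const_mul (measurable_minf _ ha fun f => ?_) 2).sub_const 1)
        (measurable_subtype_coe.comp (hz j))
      exact Finset.measurable_sum _ fun l _ => Measurable.ite (measurableSet_setOfPred.2 (hl _ _))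
        (measurable_llr.comp (ih _)) measurable_const
  exact measurable_of_tendsto_metrizable (fun t => key t j)
    (tendsto_pi_nhds.2 fun ω => iter_tendsto j)

theorem Wfix_map (e : V ≃ V') (act' : V' × V' → Prop)
    (lt' : (V' × V') × ℕ → (V' × V') × ℕ → Prop) (z' : (V' × V') × ℕ → I) (j : (V × V) × ℕ) :
    Wfix act' lt' z' (e.prodCongr e j.1, j.2) =
      Wfix (fun f => act' (e.prodCongr e f))
        (fun i j => lt' (e.prodCongr e i.1, i.2) (e.prodCongr e j.1, j.2))
        (fun j => z' (e.prodCongr e j.1, j.2)) j := by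
  have key : ∀ t (j : (V × V) × ℕ), iter act' lt' z' t (e.prodCongr e j.1, j.2) =
      iter (fun f => act' (e.prodCongr e f))
        (fun i j => lt' (e.prodCongr e i.1, i.2) (e.prodCongr e j.1, j.2))
        (fun j => z' (e.prodCongr e j.1, j.2)) t j := by
    intro t
    induction t with
    | zero => exact fun _ => rfl
    | succ t ih =>
      intro j
      simp only [iter, post]
      rw [minf_map]
      congr 4
      ext f
      exact sum_congr rfl fun l _ => by rw [ih (f, l)]
  unfold Wfix
  simp only [key]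

end Vale.Agent.P143
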