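import Mathlib

/-!
Kirchhoff's formula: edge marginals of weighted spanning trees as a variational quantity.
-/

open Finset Matrix
open scoped Classical

namespace Vale.Agent.P143

section CB
variable {D N : Type} [Fintype N] [DecidableEq N]

noncomputable def gam (b : D → N → ℝ) (g : N → D) : ℝ :=
  (∏ i, b (g i) i) * (Matrix.of fun i j => b (g i) j).det

theorem det_expand (H : Finset D) (c : D → ℝ) (b : D → N → ℝ) :
    (∑ d ∈ H, c d • vecMulVec (b d) (b d)).det =
      ∑ g ∈ Fintype.piFinset (fun _ : N => H), (∏ i, c (g i)) * gam b g := by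
  have e : (∑ d ∈ H, c d • vecMulVec (b d) (b d)) =
      Matrix.of fun i => ∑ d ∈ H, (c d * b d i) • b d := by
    ext i j
    simp [Matrix.sum_apply, vecMulVec_apply, mul_assoc]
  rw [e]
  have := (Matrix.detRowAlternating (n := N) (R := ℝ)).toMultilinearMap.map_sum_finset
    (fun i d => (c d * b d i) • b d) (fun _ => H)
  refine this.trans (sum_congr rfl fun g _ => ?_)
  rw [MultilinearMap.map_smul_univ, prod_mul_distrib, gam, smul_eq_mul, mul_assoc]
  rfl

theorem gam_zero (b : D → N → ℝ) {g : N → D} (h : ¬Function.Injective g) : gam b g = 0 := by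
  simp only [Function.Injective, not_forall] at h
  obtain ⟨i, j, e, hij⟩ := h
  rw [gam, Matrix.det_zero_of_row_eq hij (by ext k; simp [e]), mul_zero]

noncomputable def gram (b : D → N → ℝ) (T : Finset D) : Matrix N N ℝ :=
  ∑ d ∈ T, vecMulVec (b d) (b d)

theorem cauchy_binet (H : Finset D) (c : D → ℝ) (b : D → N → ℝ) :
    (∑ d ∈ H, c d • vecMulVec (b d) (b d)).det =
      ∑ T ∈ powersetCard (Fintype.card N) H, (∏ d ∈ T, c d) * (gram b T).det := by
  rw [det_expand, ← sum_filter_add_sum_filter_not _ (fun g : N → D => Function.Injective g),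
    sum_eq_zero (s := filter (fun g : N → D => ¬Function.Injective g) _)
      (fun g hg => by rw [gam_zero b (mem_filter.1 hg).2, mul_zero]), add_zero,
    ← sum_fiberwise_of_maps_to (t := powersetCard (Fintype.card N) H)
      (g := fun g : N → D => image g univ)]
  · refine sum_congr rfl fun T hT => ?_
    obtain ⟨hT1, hT2⟩ := mem_powersetCard.1 hT
    have := det_expand T (fun _ => 1) b
    simp only [one_smul, prod_const_one, one_mul] at this
    rw [gram, this, ← sum_filter_add_sum_filter_not (Fintype.piFinset fun _ => T)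
      (fun g : N → D => Function.Injective g),
      sum_eq_zero (s := filter (fun g : N → D => ¬Function.Injective g) _)
        (fun g hg => gam_zero b (mem_filter.1 hg).2), add_zero, mul_sum]
    refine sum_congr ?_ fun g hg => ?_
    · ext g
      simp only [mem_filter, Fintype.mem_piFinset]
      constructor
      · rintro ⟨⟨-, h2⟩, rfl⟩
        exact ⟨fun i => mem_image_of_mem _ (mem_univ i), h2⟩
      · rintro ⟨h1, h2⟩
        refine ⟨⟨fun i => hT1 (h1 i), h2⟩, eq_of_subset_of_card_le ?_ ?_⟩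
        · exact image_subset_iff.2 fun i _ => h1 i
        · rw [card_image_of_injective _ h2, hT2, card_univ]
    · obtain ⟨h1, h2⟩ := mem_filter.1 hg
      have : image g univ = T := eq_of_subset_of_card_le
        (image_subset_iff.2 fun i _ => Fintype.mem_piFinset.1 h1 i)
        (by rw [card_image_of_injective _ h2, hT2, card_univ])
      rw [← this, prod_image fun i _ j _ h => h2 h]
  · intro g hg
    obtain ⟨h1, h2⟩ := mem_filter.1 hg
    exact mem_powersetCard.2 ⟨image_subset_iff.2 fun i _ => Fintype.mem_piFinset.1 h1 i,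
      by rw [card_image_of_injective _ h2, card_univ]⟩

end CB

variable {V : Type}

/-- Reachability from `r` along the darts of `T`, in either direction. -/
def Reach (T : Finset (V × V)) (r v : V) : Prop :=
  Relation.ReflTransGen (fun a b => (a, b) ∈ T ∨ (b, a) ∈ T) r v

noncomputable def trees (Vs : Finset V) (r : V) (H : Finset (V × V)) : Finset (Finset (V × V)) :=
  (powersetCard (Vs.card - 1) H).filter fun T => ∀ v ∈ Vs, Reach T r v

noncomputable def bz (Vs : Finset V) (r : V) (d : V × V) (v : Vs.erase r) : ℤ :=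
  (if v.1 = d.1 then 1 else 0) - if v.1 = d.2 then 1 else 0

noncomputable def bv (Vs : Finset V) (r : V) (d : V × V) (v : Vs.erase r) : ℝ := bz Vs r d v

theorem bv_dot {Vs : Finset V} {r : V} {d : V × V} (h1 : d.1 ∈ Vs) (h2 : d.2 ∈ Vs) (φ : V → ℝ) :
    bv Vs r d ⬝ᵥ (fun v => φ v.1 - φ r) = φ d.1 - φ d.2 := by
  have k : ∀ a ∈ Vs, ∑ v : Vs.erase r, (if v.1 = a then (1 : ℝ) else 0) * (φ v.1 - φ r) =
      φ a - φ r := by
    intro a ha
    rw [Finset.sum_coe_sort (Vs.erase r) (fun v => (if v = a then (1 : ℝ) else 0) * (φ v - φ r))]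
    simp only [ite_mul, one_mul, zero_mul, sum_ite_eq', mem_erase, ha, and_true]
    split_ifs with h
    · rfl
    · simp [not_not.1 h]
  simp only [dotProduct, bv, bz]
  push_cast
  simp only [sub_mul, sum_sub_distrib]
  rw [k _ h1, k _ h2]
  ring

theorem gram_det {Vs : Finset V} {r : V} (hr : r ∈ Vs) {T : Finset (V × V)}
    (hT : ∀ d ∈ T, d.1 ∈ Vs ∧ d.2 ∈ Vs) (hc : T.card = Vs.card - 1) :
    (gram (bv Vs r) T).det = if ∀ v ∈ Vs, Reach T r v then 1 else 0 := by
  split_ifs with h
  · have hcard : Fintype.card (Vs.erase r) = Fintype.card T := by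
      simp [card_erase_of_mem hr, hc]
    let e := Fintype.equivOfCardEq hcard
    let B : Matrix (Vs.erase r) (Vs.erase r) ℤ := Matrix.of fun i j => bz Vs r (e j) i
    have e1 : gram (bv Vs r) T = (B.map (Int.castRingHom ℝ)) * (B.map (Int.castRingHom ℝ))ᵀ := by
      ext i j
      simp only [gram, Matrix.sum_apply, vecMulVec_apply, mul_apply, transpose_apply, map_apply, B,
        of_apply, bv]
      rw [← Finset.sum_coe_sort T, ← e.sum_comp]
      simp
    have key : ∀ v, Reach T r v → ∃ y : Vs.erase r → ℤ,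
        B *ᵥ y = fun w => if w.1 = v then 1 else 0 := by
      intro v hv
      induction hv with
      | refl =>
        refine ⟨0, ?_⟩
        ext w
        simp [ne_of_mem_erase w.2]
      | @tail a b' _ hab ih =>
        obtain ⟨y, hy⟩ := ih
        rcases hab with hab | hab
        · refine ⟨y - Pi.single (e.symm ⟨_, hab⟩) 1, ?_⟩
          rw [mulVec_sub, hy, mulVec_single_one]
          ext w
          simp [B, bz]
        · refine ⟨y + Pi.single (e.symm ⟨_, hab⟩) 1, ?_⟩
          rw [mulVec_add, hy, mulVec_single_one]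
          ext w
          simp [B, bz]
    choose Y hY using fun v : Vs.erase r => key v.1 (h v.1 (mem_of_mem_erase v.2))
    have e2 : B * (Matrix.of Y)ᵀ = 1 := by
      ext i j
      have := congrFun (hY j) i
      simp only [mulVec, dotProduct] at this
      simp only [mul_apply, transpose_apply, of_apply, this, one_apply, Subtype.ext_iff]
    have e3 := congrArg det e2
    rw [det_mul, det_one] at e3
    rw [e1, det_mul, det_transpose]
    have e4 : (B.map (Int.castRingHom ℝ)).det = (B.det : ℝ) := ((Int.castRingHom ℝ).map_det B).symm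
    rw [e4]
    rcases Int.eq_one_or_neg_one_of_mul_eq_one e3 with h | h <;> simp [h]
  · push Not at h
    obtain ⟨v, hv, hv'⟩ := h
    let φ : V → ℝ := fun w => if Reach T r w then 0 else 1
    have r0 : φ r = 0 := if_pos Relation.ReflTransGen.refl
    rw [← Matrix.exists_mulVec_eq_zero_iff]
    refine ⟨fun w => φ w.1 - φ r, fun h0 => ?_, ?_⟩
    · have hne : v ≠ r := by rintro rfl; exact hv' Relation.ReflTransGen.refl
      have := congrFun h0 ⟨v, mem_erase.2 ⟨hne, hv⟩⟩
      simp [r0, φ, hv'] at this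
    · rw [gram, Matrix.sum_mulVec]
      refine sum_eq_zero fun d hd => ?_
      rw [vecMulVec_mulVec, bv_dot (hT d hd).1 (hT d hd).2]
      have : φ d.1 = φ d.2 := by
        have : Reach T r d.1 ↔ Reach T r d.2 :=
          ⟨fun h => h.tail (Or.inl hd), fun h => h.tail (Or.inr hd)⟩
        simp only [φ, this]
      simp [this]

theorem det_lap {Vs : Finset V} {r : V} (hr : r ∈ Vs) {H : Finset (V × V)}
    (hH : ∀ d ∈ H, d.1 ∈ Vs ∧ d.2 ∈ Vs) (c : V × V → ℝ) :
    (∑ d ∈ H, c d • vecMulVec (bv Vs r d) (bv Vs r d)).det =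
      ∑ T ∈ trees Vs r H, ∏ d ∈ T, c d := by
  rw [cauchy_binet, trees, sum_filter]
  have : Fintype.card (Vs.erase r) = Vs.card - 1 := by simp [card_erase_of_mem hr]
  rw [this]
  refine sum_congr rfl fun T hT => ?_
  obtain ⟨h1, h2⟩ := mem_powersetCard.1 hT
  rw [gram_det hr (fun d hd => hH d (h1 hd)) h2]
  split_ifs <;> simp

/-- The variational functional. -/
noncomputable def val (H : Finset (V × V)) (x : V × V → ℝ) (d : V × V) (φ : V → ℝ) : ℝ :=
  Real.exp (x d) * (2 * (φ d.1 - φ d.2) - ∑ f ∈ insert d H, Real.exp (x f) * (φ f.1 - φ f.2) ^ 2)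

/-- Conductance times effective resistance. -/
noncomputable def mfin (H : Finset (V × V)) (x : V × V → ℝ) (d : V × V) : ℝ := ⨆ φ, val H x d φ

theorem kirchhoff {Vs : Finset V} {r : V} (hr : r ∈ Vs) {H : Finset (V × V)}
    (hH : ∀ d ∈ H, d.1 ∈ Vs ∧ d.2 ∈ Vs) (hne : (trees Vs r H).Nonempty) (x : V × V → ℝ)
    {d : V × V} (hd : d ∈ H) :
    mfin H x d * ∑ T ∈ trees Vs r H, ∏ f ∈ T, Real.exp (x f) =
      ∑ T ∈ trees Vs r H, if d ∈ T then ∏ f ∈ T, Real.exp (x f) else 0 := by
  set c : V × V → ℝ := fun f => Real.exp (x f) with hc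
  set L := ∑ f ∈ H, c f • vecMulVec (bv Vs r f) (bv Vs r f) with hL
  have hZ : L.det = ∑ T ∈ trees Vs r H, ∏ f ∈ T, c f := det_lap hr hH c
  have Z0 : 0 < L.det := by
    rw [hZ]
    exact sum_pos (fun T _ => prod_pos fun f _ => Real.exp_pos _) hne
  set b := bv Vs r d with hb
  set ξ := L⁻¹ *ᵥ b with hξ
  have Lξ : L *ᵥ ξ = b := by
    rw [hξ, mulVec_mulVec, mul_nonsing_inv _ (isUnit_iff_ne_zero.2 Z0.ne'), one_mulVec]
  have quad : ∀ y z : Vs.erase r → ℝ, y ⬝ᵥ L *ᵥ z =
      ∑ f ∈ H, c f * ((bv Vs r f ⬝ᵥ y) * (bv Vs r f ⬝ᵥ z)) := by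
    intro y z
    rw [hL, Matrix.sum_mulVec, dotProduct_sum]
    refine sum_congr rfl fun f _ => ?_
    rw [smul_mulVec, vecMulVec_mulVec, dotProduct_smul, dotProduct_smul, dotProduct_comm y]
    simp [mul_comm]
  have hm : mfin H x d = c d * (b ⬝ᵥ ξ) := by
    have up : ∀ φ, val H x d φ ≤ c d * (b ⬝ᵥ ξ) := by
      intro φ
      refine mul_le_mul_of_nonneg_left ?_ (Real.exp_pos _).le
      set y : Vs.erase r → ℝ := fun v => φ v.1 - φ r
      have e1 : ∀ f ∈ H, φ f.1 - φ f.2 = bv Vs r f ⬝ᵥ y := fun f hf =>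
        (bv_dot (hH f hf).1 (hH f hf).2 φ).symm
      rw [insert_eq_of_mem hd, sum_congr rfl fun f hf => by rw [e1 f hf], e1 d hd]
      have q1 := quad y ξ
      have q2 := quad ξ ξ
      rw [Lξ] at q1 q2
      have q3 : 0 ≤ ∑ f ∈ H, c f * ((bv Vs r f ⬝ᵥ y) - (bv Vs r f ⬝ᵥ ξ)) ^ 2 :=
        sum_nonneg fun f _ => mul_nonneg (Real.exp_pos _).le (sq_nonneg _)
      have q4 : ∑ f ∈ H, c f * ((bv Vs r f ⬝ᵥ y) - (bv Vs r f ⬝ᵥ ξ)) ^ 2 =
          ∑ f ∈ H, c f * (bv Vs r f ⬝ᵥ y) ^ 2 -
            2 * ∑ f ∈ H, c f * ((bv Vs r f ⬝ᵥ y) * (bv Vs r f ⬝ᵥ ξ)) +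
            ∑ f ∈ H, c f * ((bv Vs r f ⬝ᵥ ξ) * (bv Vs r f ⬝ᵥ ξ)) := by
        rw [mul_sum, ← sum_sub_distrib, ← sum_add_distrib]
        exact sum_congr rfl fun f _ => by ring
      rw [q4, ← q1, ← q2, dotProduct_comm y, dotProduct_comm ξ] at q3
      linarith
    refine le_antisymm (ciSup_le up) (le_ciSup_of_le ⟨_, Set.forall_mem_range.2 up⟩
      (fun v => if h : v ∈ Vs.erase r then ξ ⟨v, h⟩ else 0) (le_of_eq ?_))
    set φ : V → ℝ := fun v => if h : v ∈ Vs.erase r then ξ ⟨v, h⟩ else 0 with hφ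
    have e0 : (fun v : Vs.erase r => φ v.1 - φ r) = ξ := by
      ext v
      simp only [hφ, v.2, dif_pos, notMem_erase, dif_neg, not_false_eq_true, sub_zero]
    have e1 : ∀ f ∈ H, φ f.1 - φ f.2 = bv Vs r f ⬝ᵥ ξ := fun f hf => by
      rw [← bv_dot (r := r) (hH f hf).1 (hH f hf).2 φ, e0]
    unfold val
    rw [insert_eq_of_mem hd, sum_congr rfl fun f hf => by rw [e1 f hf], e1 d hd]
    have q2 := quad ξ ξ
    rw [Lξ, dotProduct_comm] at q2
    simp only [sq]
    rw [← q2]
    simp only [hc]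
    ring
  have h2 := det_lap hr hH (fun f => c f + if f = d then 1 else 0)
  have e3 : ∑ f ∈ H, (c f + if f = d then 1 else 0) • vecMulVec (bv Vs r f) (bv Vs r f) =
      L * (1 + vecMulVec ξ b) := by
    simp only [add_smul, sum_add_distrib, ite_smul, one_smul, zero_smul, sum_ite_eq', hd, if_true]
    rw [mul_add, mul_one, mul_vecMulVec, Lξ]
  rw [e3, det_mul, vecMulVec_eq Unit, det_one_add_replicateCol_mul_replicateRow] at h2
  rw [hm, ← hZ]
  have e4 : ∑ T ∈ trees Vs r H, (if d ∈ T then ∏ f ∈ T, c f else 0) =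
      c d * (∑ T ∈ trees Vs r H, ∏ f ∈ T, (c f + if f = d then 1 else 0) -
        ∑ T ∈ trees Vs r H, ∏ f ∈ T, c f) := by
    rw [← sum_sub_distrib, mul_sum]
    refine sum_congr rfl fun T _ => ?_
    split_ifs with h
    · have k : ∏ f ∈ T.erase d, (c f + if f = d then 1 else 0) = ∏ f ∈ T.erase d, c f :=
        prod_congr rfl fun f hf => by rw [if_neg (ne_of_mem_erase hf), add_zero]
      rw [← mul_prod_erase _ _ h, ← mul_prod_erase _ _ h, if_pos rfl, k]
      ring
    · have k : ∏ f ∈ T, (c f + if f = d then 1 else 0) = ∏ f ∈ T, c f :=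
        prod_congr rfl fun f hf => by rw [if_neg (ne_of_mem_of_not_mem hf h), add_zero]
      rw [k]
      ring
  rw [e4, ← h2, ← hZ]
  ring

end Vale.Agent.P143
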