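import Vale.Agent.P143.Decode
import Vale.Agent.P143.Fix

/-!
On a finite graph the solution of the filtering equation has the law of the noisy observations of
a uniform spanning tree.
-/

open MeasureTheory ProbabilityTheory Filter Topology Finset Function
open scoped unitInterval ENNReal Classical

namespace Vale.Agent.P143

variable {K V β : Type}

attribute [local irreducible] Wfix post llr Q

theorem finite_law [Countable V] [LinearOrder β] {Vs : Finset V} {r : V} (hr : r ∈ Vs)
    {H : Finset (V × V)} (hH : ∀ d ∈ H, d.1 ∈ Vs ∧ d.2 ∈ Vs) (hne : (trees Vs r H).Nonempty)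
    {key : (V × V) × ℕ → β} (hkey : Set.InjOn key {j | j.1 ∈ H})
    (hk : ∀ i j, key i < key j → i.2 ≤ j.2) {κ : (V × V) × ℕ → K} (hκ : Set.InjOn κ {j | j.1 ∈ H})
    (N : ℕ) {E : Set ((V × V) × ℕ → ℝ)} (mE : MeasurableSet E)
    (hE : ∀ w w', (∀ d ∈ H, ∀ k < N, w (d, k) = w' (d, k)) → (w ∈ E ↔ w' ∈ E)) :
    (iid K).real ((fun ω => Wfix (fun f => f ∈ H) (fun i j => key i < key j) fun j => ω (κ j)) ⁻¹' E)
      = (∑ t ∈ trees Vs r H, (iid K).real (obs κ t ⁻¹' E)) / (trees Vs r H).card := by
  set W : (K → I) → (V × V) × ℕ → ℝ :=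
    fun ω => Wfix (fun f => f ∈ H) (fun i j => key i < key j) fun j => ω (κ j) with hW
  have sub : ((H ×ˢ range N : Finset _) : Set ((V × V) × ℕ)) ⊆ {j | j.1 ∈ H} :=
    fun j hj => (mem_product.1 hj).1
  have mW : ∀ j, Measurable fun ω => W ω j := fun j =>
    measurable_Wfix (act := fun _ f => f ∈ H) (lt := fun _ i j => key i < key j)
      (z := fun (ω : K → I) j => ω (κ j)) (fun _ => measurable_const) (fun _ _ => measurable_const)
      (fun j => measurable_pi_apply (κ j)) j
  have h := sequential (S := H ×ˢ range N) (hkey.mono sub) (hκ.mono sub) hne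
    (sg := fun t j => sg t j.1) (fun t j => by unfold sg; split_ifs <;> simp) mW
    (m := fun ω j => post (fun f => f ∈ H) (fun i j => key i < key j) (W ω) j)
    (fun ω j => post_abs _ _) (fun ω j _ => Wfix_eq j) ?_ ?_ (measurable_one.indicator mE)
  · have k : ∀ X Y : (K → I) → (V × V) × ℕ → ℝ, (∀ j, Measurable fun ω => X ω j) →
        (∀ ω, ∀ j ∈ H ×ˢ range N, Y ω j = X ω j) →
        ∫⁻ ω, E.indicator (1 : ((V × V) × ℕ → ℝ) → ℝ≥0∞) (Y ω) ∂iid K = iid K (X ⁻¹' E) := by
      intro X Y hX hY
      rw [← lintegral_indicator_one (measurable_pi_lambda _ hX mE)]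
      refine lintegral_congr fun ω => ?_
      have := hE (Y ω) (X ω) fun d hd k hk => hY ω _ (mem_product.2 ⟨hd, mem_range.2 hk⟩)
      simp only [Set.indicator, this, Set.mem_preimage, Pi.one_apply]
    replace h := (k W _ mW fun ω j hj => by simp only [hj, if_true]).symm.trans
      (h.trans (sum_congr rfl fun t _ => congrArg _ (k (obs κ t) _
        (fun j => by unfold obs; fun_prop) fun ω j hj => by simp only [hj, if_true, obs])))
    rw [Measure.real, h, ENNReal.toReal_sum fun t _ => ENNReal.mul_ne_top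
      (by simp [hne.ne_empty]) (measure_ne_top _ _), sum_div]
    refine sum_congr rfl fun t _ => ?_
    rw [ENNReal.toReal_mul, ENNReal.toReal_inv, ENNReal.toReal_natCast, div_eq_inv_mul]
    rfl
  · intro ω j hj
    obtain ⟨j1, j2⟩ := mem_product.1 hj
    set s := (H ×ˢ range N).filter fun i => key i < key j with hs
    set X := Xs (fun i j => key i < key j) (W ω) j with hX
    have e : ∀ t ∈ trees Vs r H, lik (fun j => sg t j.1) s (W ω) =
        (∏ i ∈ s, (1 - W ω i / 8)) * ∏ f ∈ t, Real.exp (X f) := by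
      intro t ht
      have tH : t ⊆ H := (mem_powersetCard.1 (mem_filter.1 ht).1).1
      have e1 : ∑ f ∈ t, X f = ∑ i ∈ s, if i.1 ∈ t then llr (W ω i) else 0 := by
        simp only [hX, Xs]
        rw [← sum_product', ← sum_filter]
        refine (sum_congr rfl fun _ _ => ?_).trans ((sum_filter (fun i => key i < key j)
          fun i => llr (W ω i)).symm.trans (sum_congr ?_ fun _ _ => rfl))
        · congr
        ext i
        simp only [hs, mem_filter, mem_product, mem_range] at j2 ⊢
        exact ⟨fun h => ⟨⟨⟨tH h.1.1, by omega⟩, h.2⟩, h.1.1⟩,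
          fun h => ⟨⟨h.2, Nat.lt_succ_of_le (hk _ _ h.1.2)⟩, h.1.2⟩⟩
      rw [← Real.exp_sum, e1, Real.exp_sum, ← prod_mul_distrib]
      refine prod_congr rfl fun i _ => ?_
      simp only [sg]
      split_ifs
      · rw [mul_comm (_ - _), exp_llr (Wfix_abs i), one_mul]
      · rw [Real.exp_zero]; ring
    have kk := kirchhoff hr hH hne X j1
    have e2 : ∀ t ∈ trees Vs r H, sg t j.1 * lik (fun j => sg t j.1) s (W ω) =
        (∏ i ∈ s, (1 - W ω i / 8)) * (2 * (if j.1 ∈ t then ∏ f ∈ t, Real.exp (X f) else 0) -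
          ∏ f ∈ t, Real.exp (X f)) := fun t ht => by
      rw [e t ht, sg]
      split_ifs <;> ring
    rw [sum_congr rfl e, sum_congr rfl e2, ← mul_sum, ← mul_sum, sum_sub_distrib, ← mul_sum, ← kk,
      post, minf_finset]
    ring
  · intro ω u j hj i hi h
    refine Wfix_causal (L := fun i => i.1 ∈ H ∧ key i < key j) (fun i hi => ?_)
      (fun i hi f l h1 _ h3 => ⟨h1.elim (fun h => h ▸ hi.1) id, h3.trans hi.2⟩) ⟨sub hi, h⟩
    refine update_of_ne (fun h => ?_) _ _
    rw [hκ hi.1 (sub hj) h] at hi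
    exact lt_irrefl _ hi.2

end Vale.Agent.P143
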