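import Vale.Agent.P143.Kirch
import Vale.Agent.P143.Defs

/-!
Spanning trees of a finite subgraph as sets of oriented edges, and existence of exhaustions.
-/

open Finset SimpleGraph
open scoped Classical

namespace Vale.Agent.P143

variable {V β : Type} [LinearOrder β] {G : SimpleGraph V}

/-- The edges of `K`, each oriented towards the larger label. -/
noncomputable def darts (Vs : Finset V) (K : G.Subgraph) (T : V → β) : Finset (V × V) :=
  (Vs ×ˢ Vs).filter fun d => K.Adj d.1 d.2 ∧ T d.1 < T d.2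

variable {Vs : Finset V} {K H : G.Subgraph} {T : V → β}

theorem mem_darts (hK : K.verts = Vs) {d : V × V} :
    d ∈ darts Vs K T ↔ K.Adj d.1 d.2 ∧ T d.1 < T d.2 := by
  rw [darts, mem_filter, mem_product]
  exact ⟨fun h => h.2, fun h => ⟨⟨by simpa [hK] using h.1.fst_mem, by simpa [hK] using h.1.snd_mem⟩, h⟩⟩

theorem adj_iff_darts (hT : Function.Injective T) (hK : K.verts = Vs) {u v : V} :
    K.Adj u v ↔ (u, v) ∈ darts Vs K T ∨ (v, u) ∈ darts Vs K T := by
  simp only [mem_darts hK]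
  refine ⟨fun h => (lt_or_gt_of_ne (hT.ne h.ne)).imp (fun h1 => ⟨h, h1⟩) fun h1 => ⟨h.symm, h1⟩, ?_⟩
  rintro (h | h)
  exacts [h.1, h.1.symm]

theorem edge_iff_darts (hT : Function.Injective T) (hK : K.verts = Vs) {e : Sym2 V} :
    e ∈ K.edgeSet ↔ ∃ d ∈ darts Vs K T, e = s(d.1, d.2) := by
  induction e using Sym2.ind with
  | h u v =>
    rw [Subgraph.mem_edgeSet]
    constructor
    · intro h
      rcases (adj_iff_darts hT hK).1 h with h | h
      exacts [⟨_, h, rfl⟩, ⟨_, h, Sym2.eq_swap⟩]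
    · rintro ⟨d, h1, h2⟩
      rw [← Subgraph.mem_edgeSet, h2]
      exact ((mem_darts hK).1 h1).1

theorem isTree_iff (hT : Function.Injective T) (hK : K.verts = Vs) {r : V} (hr : r ∈ Vs) :
    K.coe.IsTree ↔ (darts Vs K T).card = Vs.card - 1 ∧ ∀ v ∈ Vs, Reach (darts Vs K T) r v := by
  have hr' : r ∈ K.verts := by simpa [hK] using hr
  have : Finite K.verts := by rw [hK]; infer_instance
  have c1 : Nat.card K.verts = Vs.card := by rw [hK]; simp
  have c2 : Nat.card K.coe.edgeSet = (darts Vs K T).card := by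
    rw [Nat.card_coe_set_eq, ← Set.ncard_image_of_injective _
      (Sym2.map.injective Subtype.val_injective), Subgraph.image_coe_edgeSet_coe,
      ← Set.ncard_coe_finset, ← Set.InjOn.ncard_image (f := fun d : V × V => s(d.1, d.2))]
    · congr 1
      ext e
      simp only [edge_iff_darts hT hK, Set.mem_image, mem_coe, eq_comm]
    · intro a ha b hb h
      have h1 := ((mem_darts hK).1 ha).2
      have h2 := ((mem_darts hK).1 hb).2
      rcases Sym2.eq_iff.1 h with h | h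
      · exact Prod.ext h.1 h.2
      · rw [h.1, h.2] at h1
        exact absurd h1 h2.not_gt
  have c3 : K.coe.Connected ↔ ∀ v ∈ Vs, Reach (darts Vs K T) r v := by
    constructor
    · intro h v hv
      have := (reachable_iff_reflTransGen _ _).1 (h ⟨r, hr'⟩ ⟨v, by simpa [hK] using hv⟩)
      exact this.lift Subtype.val fun a b h => (adj_iff_darts hT hK).1 h
    · intro h
      have k : ∀ v, Reach (darts Vs K T) r v → ∃ hv, K.coe.Reachable ⟨r, hr'⟩ ⟨v, hv⟩ := by
        intro v hv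
        induction hv with
        | refl => exact ⟨hr', Reachable.refl _⟩
        | tail _ hab ih =>
          obtain ⟨h1, h2⟩ := ih
          have h3 := (adj_iff_darts hT hK).2 hab
          exact ⟨h3.snd_mem, h2.trans (Adj.reachable h3)⟩
      exact (connected_iff_exists_forall_reachable _).2 ⟨⟨r, hr'⟩, fun v =>
        (k v.1 (h v.1 (by simpa [hK] using v.2))).2⟩
  have := card_pos.2 ⟨r, hr⟩
  rw [isTree_iff_connected_and_card, c1, c2, c3, and_comm]
  exact and_congr_left' (by omega)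

theorem bijOn_darts (hT : Function.Injective T) (hH : H.verts = Vs) {r : V} (hr : r ∈ Vs) :
    Set.BijOn (fun K => darts Vs K T) (spanningTrees H) (trees Vs r (darts Vs H T)) := by
  refine ⟨fun K hK => ?_, fun K hK K' hK' h => ?_, fun S hS => ?_⟩
  · have h1 := hK.2.1.trans hH
    have h2 := (isTree_iff hT h1 hr).1 hK.2.2
    refine mem_filter.2 ⟨mem_powersetCard.2 ⟨fun d hd => ?_, h2.1⟩, h2.2⟩
    rw [mem_darts h1] at hd
    exact (mem_darts hH).2 ⟨hK.1.2 hd.1, hd.2⟩
  · refine Subgraph.ext (hK.2.1.trans hK'.2.1.symm) ?_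
    ext u v
    rw [adj_iff_darts hT (hK.2.1.trans hH), adj_iff_darts hT (hK'.2.1.trans hH)]
    simp only [show darts Vs K T = darts Vs K' T from h]
  · obtain ⟨h1, h2⟩ := mem_filter.1 hS
    obtain ⟨h3, h4⟩ := mem_powersetCard.1 h1
    have a1 : ∀ {u v}, ((u, v) ∈ S ∨ (v, u) ∈ S) → H.Adj u v := fun h =>
      (adj_iff_darts hT hH).2 (h.imp (h3 ·) (h3 ·))
    let K : G.Subgraph := ⟨H.verts, fun u v => (u, v) ∈ S ∨ (v, u) ∈ S, fun h => (a1 h).adj_sub,
      fun h => (a1 h).fst_mem, ⟨fun _ _ h => h.symm⟩⟩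
    have e : darts Vs K T = S := by
      ext d
      rw [mem_darts (K := K) hH]
      refine ⟨fun h => h.1.resolve_right fun h5 => ?_,
        fun h => ⟨Or.inl h, ((mem_darts hH).1 (h3 h)).2⟩⟩
      exact h.2.not_gt ((mem_darts hH).1 (h3 h5)).2
    exact ⟨K, ⟨⟨subset_rfl, fun _ _ h => a1 h⟩, rfl,
      (isTree_iff hT (K := K) hH hr).2 (by rw [e]; exact ⟨h4, h2⟩)⟩, e⟩

theorem trees_nonempty (hT : Function.Injective T) (hH : H.verts = Vs) {r : V} (hr : r ∈ Vs)
    (hc : H.Connected) : (trees Vs r (darts Vs H T)).Nonempty := by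
  obtain ⟨F, h1, h2⟩ := hc.coe.exists_isTree_le
  let K : G.Subgraph := ⟨H.verts, fun u v => ∃ hu hv, F.Adj ⟨u, hu⟩ ⟨v, hv⟩,
    fun ⟨_, _, h⟩ => Subgraph.Adj.adj_sub (h1 h), fun ⟨h, _⟩ => h,
    ⟨fun _ _ ⟨a, b, h⟩ => ⟨b, a, h.symm⟩⟩⟩
  have e : K.coe = F := by
    ext u v
    exact ⟨fun ⟨_, _, h⟩ => h, fun h => ⟨_, _, h⟩⟩
  exact ⟨_, (bijOn_darts hT hH hr).1 (x := K) ⟨⟨subset_rfl, fun _ _ ⟨_, _, h⟩ => h1 h⟩, rfl, e ▸ h2⟩⟩

theorem ustProb_eq (hT : Function.Injective T) (hH : H.verts = Vs) {r : V} (hr : r ∈ Vs)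
    (F A : Finset (Sym2 V)) :
    ustProb H F A = (((trees Vs r (darts Vs H T)).filter fun S =>
      ∀ e ∈ F, (∃ d ∈ S, e = s(d.1, d.2)) ↔ e ∈ A).card : ℝ) / (trees Vs r (darts Vs H T)).card := by
  have b := bijOn_darts hT hH hr
  unfold ustProb
  rw [← Set.ncard_coe_finset, ← Set.ncard_coe_finset, ← b.ncard_eq, ← Set.InjOn.ncard_image
    (b.injOn.mono (Set.sep_subset _ _))]
  congr 3
  ext S
  simp only [Set.mem_image, Set.mem_setOf_eq, coe_filter]
  constructor
  · rintro ⟨K, ⟨h1, h2⟩, rfl⟩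
    exact ⟨b.1 h1, fun e he => by rw [← edge_iff_darts hT (h1.2.1.trans hH), h2 e he]⟩
  · rintro ⟨h1, h2⟩
    obtain ⟨K, h3, rfl⟩ := b.2.2 h1
    exact ⟨K, ⟨h3, fun e he => by rw [edge_iff_darts hT (h3.2.1.trans hH), h2 e he]⟩, rfl⟩

theorem exists_exhaustion [Countable V] (hG : G.Connected) : ∃ H, IsExhaustion G H := by
  obtain ⟨r⟩ := hG.nonempty
  have : Nonempty V := ⟨r⟩
  obtain ⟨f, hf⟩ := exists_surjective_nat (V × V)
  have : ∀ d : V × V, ∃ C : G.Subgraph, (C.verts.Finite ∧ C.Connected) ∧ r ∈ C.verts ∧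
      d.1 ∈ C.verts ∧ (G.Adj d.1 d.2 → C.Adj d.1 d.2) := by
    intro d
    obtain ⟨p⟩ := hG r d.1
    have fin : ∀ {v} (q : G.Walk r v), q.toSubgraph.verts.Finite := fun q => by
      rw [Walk.verts_toSubgraph]; exact List.finite_toSet _
    by_cases h : G.Adj d.1 d.2
    · refine ⟨(p.append h.toWalk).toSubgraph, ⟨fin _, Walk.toSubgraph_connected _⟩,
        Walk.start_mem_verts_toSubgraph _, ?_, fun _ => ?_⟩ <;> simp
    · exact ⟨p.toSubgraph, ⟨fin _, p.toSubgraph_connected⟩, p.start_mem_verts_toSubgraph,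
        p.end_mem_verts_toSubgraph, fun h' => absurd h' h⟩
  choose C h1 h2 h3 h4 using this
  refine ⟨partialSups (C ∘ f), fun n => ?_, (partialSups _).monotone, ?_⟩
  · induction n with
    | zero => simpa using h1 _
    | succ n ih =>
      rw [partialSups_add_one]
      exact ⟨ih.1.union (h1 _).1, Subgraph.connected_sup ih.2.preconnected (h1 _).2.preconnected
        ⟨r, (le_partialSups (C ∘ f) n).1 (h2 (f n)), h2 _⟩⟩
  · rw [iSup_partialSups_eq, eq_top_iff]
    refine ⟨fun v _ => ?_, fun u v h => ?_⟩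
    · obtain ⟨n, hn⟩ := hf (v, v)
      exact (le_iSup (C ∘ f) n).1 (by simpa [hn] using h3 (v, v))
    · obtain ⟨n, hn⟩ := hf (u, v)
      exact (le_iSup (C ∘ f) n).2 (by simpa [hn] using h4 (u, v) h)

end Vale.Agent.P143
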