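import Vale.Agent.P143.Law
import Vale.Agent.P143.Tree

/-!
The factor map and its law.
-/

open MeasureTheory ProbabilityTheory Filter Topology Finset Function
open scoped unitInterval ENNReal Classical

namespace Vale.Agent.P143

attribute [local irreducible] Wfix

variable {V V' : Type}

def act (G : SimpleGraph V) (T : V → I) (d : V × V) : Prop := G.Adj d.1 d.2 ∧ T d.1 < T d.2

def key (T : V → I) (j : (V × V) × ℕ) : ℕ ×ₗ (I ×ₗ I) := toLex (j.2, toLex (T j.1.1, T j.1.2))

noncomputable def kap (G : SimpleGraph V) (T : V → I) (j : (V × V) × ℕ) : V × ℕ × ℕ :=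
  (j.1.1, j.2 + 1, {w | G.Adj j.1.1 w ∧ T w < T j.1.2}.ncard)

def Sel (G : SimpleGraph V) (T : V → I) (ω : V × ℕ × ℕ → I) (e : Sym2 V) : Prop :=
  ∃ d, act G T d ∧ e = s(d.1, d.2) ∧
    dec (Wfix (act G T) (fun i j => key T i < key T j) fun j => ω (kap G T j)) d

theorem kap_inj {G : SimpleGraph V} (hG : ∀ v, (G.neighborSet v).Finite) {T : V → I}
    (hT : Injective T) : Set.InjOn (kap G T) {j | G.Adj j.1.1 j.1.2} := by
  rintro ⟨⟨u, v⟩, k⟩ h1 ⟨⟨u', v'⟩, k'⟩ h2 h
  simp only [kap, Prod.mk.injEq, add_left_inj] at h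
  obtain ⟨rfl, rfl, h⟩ := h
  have k : ∀ {a b}, G.Adj u a → T a < T b →
      {w | G.Adj u w ∧ T w < T a}.ncard < {w | G.Adj u w ∧ T w < T b}.ncard := fun ha hab =>
    Set.ncard_lt_ncard ⟨fun w hw => ⟨hw.1, hw.2.trans hab⟩,
      fun h => lt_irrefl _ (h ⟨ha, hab⟩).2⟩ ((hG u).subset fun w hw => hw.1)
  rcases lt_trichotomy (T v) (T v') with h3 | h3 | h3
  · exact absurd h (k h1 h3).ne
  · rw [hT h3]
  · exact absurd h (k h2 h3).ne'

theorem fixed_law [Countable V] {G : SimpleGraph V} (hG : ∀ v, (G.neighborSet v).Finite)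
    {T : V → I} (hT : Injective T) {H : ℕ → G.Subgraph} (hH : IsExhaustion G H)
    (F A : Finset (Sym2 V)) :
    Tendsto (fun n => ustProb (H n) F A) atTop
      (𝓝 ((iid (V × ℕ × ℕ)).real {ω | ∀ e ∈ F, Sel G T ω e ↔ e ∈ A})) := by
  obtain ⟨h1, h2, h3⟩ := hH
  choose r hr using fun n => (h1 n).2.nonempty
  let Vs := fun n => (h1 n).1.toFinset
  have hV : ∀ n, (H n).verts = Vs n := fun n => by simp [Vs]
  have hr' : ∀ n, r n ∈ Vs n := fun n => by simpa [Vs] using hr n
  let D := fun n => darts (Vs n) (H n) T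
  have d1 : Monotone D := fun n m h d hd =>
    (mem_darts (hV m)).2 (((mem_darts (hV n)).1 hd).imp_left fun h' => (h2 h).2 h')
  have d2 : ∀ n, ∀ f ∈ D n, act G T f := fun n f hf =>
    ((mem_darts (hV n)).1 hf).imp_left fun h => h.adj_sub
  have d3 : ∀ f, act G T f → ∃ n, f ∈ D n := fun f hf => by
    have : (⨆ n, H n).Adj f.1 f.2 := by rw [h3]; exact hf.1
    obtain ⟨n, hn⟩ := SimpleGraph.Subgraph.iSup_adj.1 this
    exact ⟨n, (mem_darts (hV n)).2 ⟨hn, hf.2⟩⟩
  obtain ⟨F', hF⟩ : ∃ F' : Finset (V × V), ∀ d, d ∈ F' ↔ act G T d ∧ s(d.1, d.2) ∈ F :=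
    ⟨((F.biUnion Sym2.toFinset) ×ˢ (F.biUnion Sym2.toFinset)).filter
      fun d => act G T d ∧ s(d.1, d.2) ∈ F, fun d => by
        rw [mem_filter, mem_product]
        exact ⟨fun h => h.2, fun h => ⟨⟨mem_biUnion.2 ⟨_, h.2, by simp⟩,
          mem_biUnion.2 ⟨_, h.2, by simp⟩⟩, h⟩⟩⟩
  have ev : ∀ᶠ n in atTop, ∀ d ∈ F', d ∈ D n := (eventually_all_finset F').2 fun d hd => by
    obtain ⟨n, hn⟩ := d3 d ((hF d).1 hd).1
    exact (eventually_ge_atTop n).mono fun m h => d1 h hn
  have tne := fun n => trees_nonempty hT (hV n) (hr' n) (h1 n).2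
  have mW : ∀ a : V × V → Prop, Measurable fun ω : V × ℕ × ℕ → I =>
      Wfix a (fun i j => key T i < key T j) fun j => ω (kap G T j) := fun a =>
    measurable_pi_lambda _ (measurable_Wfix (act := fun _ => a)
      (lt := fun _ i j => key T i < key T j) (z := fun (ω : V × ℕ × ℕ → I) j => ω (kap G T j))
      (fun _ => measurable_const) (fun _ _ => measurable_const)
      fun j => measurable_pi_apply (kap G T j))
  have h := decode (F := F') (κ := kap G T)
    (Ev := fun P => ∀ e ∈ F, (∃ d ∈ F', e = s(d.1, d.2) ∧ P d) ↔ e ∈ A)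
    (W := fun n ω => Wfix (fun f => f ∈ D n) (fun i j => key T i < key T j) fun j => ω (kap G T j))
    (W' := fun ω => Wfix (act G T) (fun i j => key T i < key T j) fun j => ω (kap G T j))
    (T := fun n => trees (Vs n) (r n) (D n))
    (fun d hd k k' h => by simpa [kap] using h)
    (fun P P' h => forall₂_congr fun e _ => iff_congr (exists_congr fun d =>
      and_congr_right fun hd => by rw [h d hd]) Iff.rfl)
    (fun P h => Measurable.forall fun e => measurable_const.imp (Measurable.iff
      (Measurable.exists fun d => measurable_const.and (measurable_const.and (h d)))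
      measurable_const))
    (fun n => mW _) (mW _) (fun ω j => Wfix_tendsto d1 d2 d3 j) tne
    (ev.mono fun n hn N E mE hE => finite_law (hr' n) (fun d hd => mem_product.1 (mem_filter.1 hd).1)
      (tne n) (fun i _ j _ h => ?_) (fun i j h => ?_)
      ((kap_inj hG hT).mono fun j hj => (d2 n _ hj).1) N mE
      fun w w' h => hE w w' fun d hd => h d (hn d hd))
  · convert h using 3 with n
    · rw [ustProb_eq hT (hV n) (hr' n)]
      congr 3
      ext t
      simp only [mem_filter]
      refine and_congr_right fun ht => forall₂_congr fun e he => iff_congr ?_ Iff.rfl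
      have tH : t ⊆ D n := (mem_powersetCard.1 (mem_filter.1 ht).1).1
      exact ⟨fun ⟨d, a, b⟩ => ⟨d, (hF d).2 ⟨d2 n d (tH a), b ▸ he⟩, b, a⟩,
        fun ⟨d, _, b, a⟩ => ⟨d, a, b⟩⟩
    · ext ω
      exact forall₂_congr fun e he => iff_congr ⟨fun ⟨d, a, b, c⟩ =>
        ⟨d, (hF d).2 ⟨a, b ▸ he⟩, b, c⟩, fun ⟨d, a, b⟩ => ⟨d, ((hF d).1 a).1, b⟩⟩ Iff.rfl
  · simp only [key, toLex_inj, Prod.mk.injEq] at h
    exact Prod.ext (Prod.ext (hT h.2.1) (hT h.2.2)) h.1
  · rcases Prod.Lex.toLex_lt_toLex.1 h with h | h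
    exacts [h.le, h.1.le]

theorem measurable_Sel [Countable V] {Ω : Type} [MeasurableSpace Ω] {G : Ω → SimpleGraph V}
    (hG : ∀ u v, Measurable fun x => (G x).Adj u v) {T : Ω → V → I}
    (hT : ∀ v, Measurable fun x => T x v) {ω : Ω → V × ℕ × ℕ → I}
    (hω : ∀ k, Measurable fun x => ω x k) (e : Sym2 V) :
    Measurable fun x => Sel (G x) (T x) (ω x) e := by
  have lt : ∀ u v, Measurable fun x => T x u < T x v := fun u v =>
    measurableSet_setOfPred.1 (measurableSet_lt (hT u) (hT v))
  have ha : ∀ d, Measurable fun x => act (G x) (T x) d := fun d => (hG _ _).and (lt _ _)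
  refine Measurable.exists fun d => (ha d).and (measurable_const.and ?_)
  have := measurable_pi_lambda _ (measurable_Wfix (act := fun x => act (G x) (T x))
    (lt := fun x i j => key (T x) i < key (T x) j) (z := fun x j => ω x (kap (G x) (T x) j)) ha
    (fun i j => ?_) fun j => ?_)
  · exact (measurable_dec d).comp this
  · simp only [key, Prod.Lex.toLex_lt_toLex]
    exact measurable_const.or (measurable_const.and ((lt _ _).or (Measurable.and
      (measurableSet_setOfPred.1 (measurableSet_eq_fun (hT _) (hT _))) (lt _ _))))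
  · have h1 : Measurable fun p : Ω × ℕ => ω p.1 (j.1.1, j.2 + 1, p.2) :=
      measurable_from_prod_countable_left fun n => hω (j.1.1, j.2 + 1, n)
    have h2 : Measurable fun x => {w | (G x).Adj j.1.1 w ∧ T x w < T x j.1.2}.ncard :=
      measurable_ncard.comp (measurable_set_iff.2 fun w => (hG _ _).and (lt _ _))
    exact h1.comp (measurable_id.prodMk h2)

theorem Sel_map (e : V ≃ V') {G : SimpleGraph V} {G' : SimpleGraph V'}
    (hG : ∀ u v, G'.Adj (e u) (e v) ↔ G.Adj u v) (T' : V' → I) (ω' : V' × ℕ × ℕ → I) (x : Sym2 V) :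
    Sel G' T' ω' (x.map e) ↔ Sel G (fun v => T' (e v)) (fun k => ω' (e k.1, k.2)) x := by
  have a1 : (fun f => act G' T' (e.prodCongr e f)) = act G fun v => T' (e v) := by
    ext f; simp [act, hG]
  have a2 : (fun j : (V × V) × ℕ => ω' (kap G' T' (e.prodCongr e j.1, j.2))) =
      fun j => ω' (e (kap G (fun v => T' (e v)) j).1, (kap G (fun v => T' (e v)) j).2) := by
    ext1 j
    simp only [kap]
    rw [← Set.ncard_image_of_injective _ e.injective]
    congr 4
    ext w
    obtain ⟨w, rfl⟩ := e.surjective w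
    simp [hG]
  unfold Sel
  refine ((e.prodCongr e).exists_congr fun d => and_congr ?_ (and_congr ?_ ?_)).symm
  · rw [← a1]
  · rw [← (Sym2.map.injective e.injective).eq_iff]; rfl
  · have := fun k => Wfix_map e (act G' T') (fun i j => key T' i < key T' j)
      (fun j => ω' (kap G' T' j)) (d, k)
    simp only [dec, sm, this, a1, a2]
    rfl

theorem exists_split : ∃ ρ : I → ℕ × ℕ → I, Measurable ρ ∧ volume.map ρ = iid (ℕ × ℕ) :=
  Measure.exists_measurable_map_eq _

noncomputable def spread (U : V → I) (k : V × ℕ × ℕ) : I := exists_split.choose (U k.1) k.2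

theorem measurable_spread {Ω : Type} [MeasurableSpace Ω] {U : Ω → V → I}
    (h : ∀ v, Measurable fun x => U x v) (k : V × ℕ × ℕ) : Measurable fun x => spread (U x) k :=
  (measurable_pi_apply k.2).comp (exists_split.choose_spec.1.comp (h k.1))

theorem map_spread : (iid V).map spread = iid (V × ℕ × ℕ) := by
  obtain ⟨h1, h2⟩ := exists_split.choose_spec
  have h3 := Measure.infinitePi_map_pi (fun _ : V => (volume : Measure I))
    (f := fun _ => exists_split.choose) fun _ => h1
  have h4 := Measure.infinitePi_map_curry_symm fun (_ : V) (_ : ℕ × ℕ) => (volume : Measure I)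
  simp only [h2] at h3
  unfold iid at *
  rw [← h4, ← h3, Measure.map_map (by fun_prop) (by fun_prop)]
  rfl

/-- The factor map. -/
noncomputable def Phi (G : SimpleGraph V) (U : V → I) (e : Sym2 V) : Bool :=
  decide (Sel G (fun v => spread U (v, 0, 0)) (spread U) e)

theorem measurable_Phi [Countable V] {Ω : Type} [MeasurableSpace Ω] {G : Ω → SimpleGraph V}
    (hG : ∀ u v, Measurable fun x => (G x).Adj u v) {U : Ω → V → I}
    (hU : ∀ v, Measurable fun x => U x v) (e : Sym2 V) :
    Measurable fun x => Phi (G x) (U x) e := by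
  refine measurable_to_bool ?_
  have := measurableSet_setOfPred.2 (measurable_Sel hG (fun v => measurable_spread hU (v, 0, 0))
    (measurable_spread hU) e)
  convert this using 1
  ext x
  simp [Phi]

theorem Phi_map (e : V ≃ V') {G : SimpleGraph V} {G' : SimpleGraph V'}
    (hG : ∀ u v, G'.Adj (e u) (e v) ↔ G.Adj u v) {U : V → I} {U' : V' → I}
    (hU : ∀ v, U' (e v) = U v) (x : Sym2 V) : Phi G' U' (x.map e) = Phi G U x := by
  obtain rfl : U = fun v => U' (e v) := funext fun v => (hU v).symm
  exact decide_eq_decide.2 (Sel_map e hG _ _ x)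

theorem Phi_edge {G : SimpleGraph V} {U : V → I} {e : Sym2 V} (h : Phi G U e = true) :
    e ∈ G.edgeSet := by
  obtain ⟨d, h1, rfl, -⟩ := of_decide_eq_true h
  exact h1.1

theorem isFUSF [Countable V] {G : SimpleGraph V} (hc : G.Connected)
    (hG : ∀ v, (G.neighborSet v).Finite) : IsFUSF G ((iid V).map (Phi G)) := by
  have mP : Measurable (Phi G) := measurable_pi_lambda _
    (measurable_Phi (G := fun _ => G) (fun _ _ => measurable_const) measurable_pi_apply)
  refine ⟨Measure.isProbabilityMeasure_map mP.aemeasurable, exists_exhaustion hc, fun H hH F A => ?_⟩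
  have mZ : ∀ {Ω : Type} [MeasurableSpace Ω] {P : Ω → Sym2 V → Prop},
      (∀ e, Measurable fun x => P x e) → MeasurableSet {x | ∀ e ∈ F, P x e ↔ e ∈ A} := fun h =>
    measurableSet_setOfPred.2 (Measurable.forall fun e => measurable_const.imp
      ((h e).iff measurable_const))
  have m1 := mZ (P := fun (ω : V × ℕ × ℕ → I) e => Sel G (fun v => ω (v, 0, 0)) ω e)
    (measurable_Sel (G := fun _ => G) (T := fun (ω : V × ℕ × ℕ → I) v => ω (v, 0, 0))
      (ω := fun ω => ω) (fun _ _ => measurable_const)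
      (fun v => measurable_pi_apply (v, 0, 0)) measurable_pi_apply)
  have e1 : ((iid V).map (Phi G)).real {ω | ∀ e ∈ F, ω e = true ↔ e ∈ A} =
      (iid (V × ℕ × ℕ)).real {ω | ∀ e ∈ F, Sel G (fun v => ω (v, 0, 0)) ω e ↔ e ∈ A} := by
    rw [← map_spread, map_measureReal_apply mP (mZ fun e => by fun_prop),
      map_measureReal_apply (measurable_pi_lambda _ (measurable_spread measurable_pi_apply)) m1]
    congr 1
    ext U
    simp [Phi]
  have inj := ae_injective (K := V × ℕ × ℕ) (f := fun v : V => (v, 0, 0))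
    fun a b h => congrArg Prod.fst h
  obtain ⟨ω0, h0⟩ := inj.exists
  have t0 := fixed_law hG h0 hH F A
  rw [e1, Measure.real, ← lintegral_indicator_one m1,
    lintegral_swap (fun k => k.2.1 = 0) (measurable_one.indicator m1),
    lintegral_congr_ae (g := fun _ => iid (V × ℕ × ℕ)
      {ω | ∀ e ∈ F, Sel G (fun v => ω0 (v, 0, 0)) ω e ↔ e ∈ A}) (inj.mono fun ω h => ?_)]
  · simpa [Measure.real] using t0
  have := tendsto_nhds_unique t0 (fixed_law hG h hH F A)
  beta_reduce
  rw [(measureReal_eq_measureReal_iff (measure_ne_top _ _) (measure_ne_top _ _)).1 this,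
    ← lintegral_indicator_one (mZ (measurable_Sel (G := fun _ => G)
      (T := fun _ v => ω (v, 0, 0)) (fun _ _ => measurable_const)
      (fun _ => measurable_const) measurable_pi_apply))]
  refine lintegral_congr fun ω' => ?_
  simp [Set.indicator, Sel, kap]

theorem cayley_connected {Γ : Type} [Group Γ] {S : Set Γ} (hS : Subgroup.closure S = ⊤) :
    (SimpleGraph.mulCayley S).Connected := by
  refine (SimpleGraph.connected_iff_exists_forall_reachable _).2 ⟨1, fun g => ?_⟩
  have k : ∀ a, ∀ s ∈ S, (SimpleGraph.mulCayley S).Reachable a (a * s) := fun a s hs => by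
    by_cases h : a = a * s
    · rw [← h]
    · exact SimpleGraph.Adj.reachable ((SimpleGraph.mulCayley_adj' _ _ _).2 ⟨h, s, hs, Or.inl rfl⟩)
  induction hS ▸ Subgroup.mem_top g using Subgroup.closure_induction_right with
  | one => rfl
  | mul_right x _ y hy ih => exact ih.trans (k x y hy)
  | mul_inv_cancel x _ y hy ih =>
    have := k (x * y⁻¹) y hy
    rw [inv_mul_cancel_right] at this
    exact ih.trans this.symm

theorem cayley_finite {Γ : Type} [Group Γ] {S : Set Γ} (hS : S.Finite) (v : Γ) :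
    ((SimpleGraph.mulCayley S).neighborSet v).Finite := by
  refine ((hS.image (v * ·)).union (hS.image (v * ·⁻¹))).subset fun w hw => ?_
  obtain ⟨-, g, hg, h | h⟩ := (SimpleGraph.mulCayley_adj' _ _ _).1 hw
  · exact Or.inl ⟨g, hg, h⟩
  · exact Or.inr ⟨g, hg, by simp [h]⟩

theorem countable_of_connected {G : SimpleGraph V} (hc : G.Connected)
    (hG : ∀ v, (G.neighborSet v).Finite) : Countable V := by
  obtain ⟨r⟩ := hc.nonempty
  have k : ∀ n (v : V), {w | ∃ p : G.Walk v w, p.length = n}.Countable := by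
    intro n
    induction n with
    | zero => exact fun v => (Set.countable_singleton v).mono fun w ⟨p, hp⟩ =>
        (SimpleGraph.Walk.eq_of_length_eq_zero hp).symm
    | succ n ih =>
      intro v
      refine ((hG v).countable.biUnion fun u _ => ih u).mono ?_
      rintro w ⟨p, hp⟩
      cases p with
      | nil => simp at hp
      | cons h q => exact Set.mem_biUnion h ⟨q, by simpa using hp⟩
  refine Set.countable_univ_iff.1 ((Set.countable_iUnion fun n => k n r).mono fun w _ => ?_)
  obtain ⟨p⟩ := hc r w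
  exact Set.mem_iUnion.2 ⟨_, p, rfl⟩

end Vale.Agent.P143
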