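import Vale.Agent.P143.Chan

/-!
Resampling of i.i.d. labels and the sequential (innovation) representation of noisy observations.
-/

open MeasureTheory ProbabilityTheory Filter Topology Finset Function
open scoped unitInterval ENNReal Classical

namespace Vale.Agent.P143

variable {K J τ β : Type}

theorem lintegral_swap (A : K → Prop) {F : (K → I) → ℝ≥0∞} (hF : Measurable F) :
    ∫⁻ ω, F ω ∂iid K = ∫⁻ ω, ∫⁻ ω', F (fun i => if A i then ω i else ω' i) ∂iid K ∂iid K := by
  have hm : Measurable fun (p : (K → I) × (K → I)) i => if A i then p.1 i else p.2 i :=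
    measurable_pi_lambda _ fun i => by split_ifs <;> fun_prop
  have h : ((iid K).prod (iid K)).map (fun p i => if A i then p.1 i else p.2 i) = iid K := by
    refine Measure.eq_infinitePi _ fun s t ht => ?_
    rw [Measure.map_apply hm (.pi s.countable_toSet fun _ _ => ht _)]
    have : (fun (p : (K → I) × (K → I)) i => if A i then p.1 i else p.2 i) ⁻¹' Set.pi s t =
        Set.pi (s.filter A) t ×ˢ Set.pi (s.filter fun i => ¬A i) t := by
      ext p
      simp only [Set.mem_preimage, Set.mem_pi, mem_coe, Set.mem_prod, mem_filter]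
      constructor
      · intro h
        exact ⟨fun i hi => by simpa [hi.2] using h i hi.1, fun i hi => by simpa [hi.2] using h i hi.1⟩
      · intro h i hi
        split_ifs with h1
        exacts [h.1 i ⟨hi, h1⟩, h.2 i ⟨hi, h1⟩]
    rw [this, Measure.prod_prod, iid, Measure.infinitePi_pi _ fun i _ => ht i,
      Measure.infinitePi_pi _ fun i _ => ht i, prod_filter_mul_prod_filter_not]
  conv_lhs => rw [← h]
  rw [lintegral_map hF hm]
  exact lintegral_prod _ (hF.comp hm).aemeasurable

theorem resample (i : K) {F : (K → I) → ℝ≥0∞} (hF : Measurable F) :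
    ∫⁻ ω, F ω ∂iid K = ∫⁻ ω, ∫⁻ u : I, F (update ω i u) ∂volume ∂iid K := by
  rw [lintegral_swap (fun j => j ≠ i) hF]
  refine lintegral_congr fun ω => ?_
  have ev : MeasurePreserving (fun u : K → I => u i) (iid K) volume :=
    measurePreserving_eval_infinitePi (fun _ : K => (volume : Measure I)) i
  rw [← ev.lintegral_comp (f := fun u => F (update ω i u)) (hF.comp (measurable_update ω))]
  refine lintegral_congr fun ω' => congrArg F (funext fun j => ?_)
  by_cases h : j = i
  · simp [h]
  · simp [h]

theorem ae_injective {V : Type} [Countable V] {f : V → K} (hf : Injective f) :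
    ∀ᵐ ω ∂iid K, Injective fun v => ω (f v) := by
  simp only [Injective, ae_all_iff]
  intro a b
  by_cases h : a = b
  · simp [h]
  have hm : MeasurableSet {ω : K → I | ω (f a) = ω (f b)} :=
    measurableSet_eq_fun (by fun_prop) (by fun_prop)
  have : iid K {ω | ω (f a) = ω (f b)} = 0 := by
    rw [← lintegral_indicator_one hm, resample (f a) (measurable_one.indicator hm)]
    refine (lintegral_congr fun ω => ?_).trans lintegral_zero
    have : ∀ u, Set.indicator {ω : K → I | ω (f a) = ω (f b)} (1 : (K → I) → ℝ≥0∞)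
        (update ω (f a) u) = Set.indicator {ω (f b)} 1 u := fun u => by
      simp [Set.indicator, update_of_ne (hf.ne h).symm]
    simp only [this]
    rw [lintegral_indicator_one (measurableSet_singleton _), measure_singleton]
  filter_upwards [measure_eq_zero_iff_ae_notMem.1 this] with ω h1 h2
  exact absurd h2 h1

/-- Likelihood of the observations `w` on `s` under the signs `a`. -/
noncomputable def lik (a : J → ℝ) (s : Finset J) (w : J → ℝ) : ℝ := ∏ j ∈ s, (1 + a j * w j / 8)

theorem sequential [LinearOrder β] {S : Finset J} {key : J → β} (hkey : Set.InjOn key S)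
    {κ : J → K} (hκ : Set.InjOn κ S) {T : Finset τ} (hT : T.Nonempty) {sg : τ → J → ℝ}
    (hsg : ∀ t j, |sg t j| ≤ 1) {W m : (K → I) → J → ℝ} (mW : ∀ j, Measurable fun ω => W ω j)
    (hm1 : ∀ ω j, |m ω j| ≤ 1) (hfix : ∀ ω, ∀ j ∈ S, W ω j = Q (m ω j) (ω (κ j)))
    (hpost : ∀ ω, ∀ j ∈ S, m ω j * ∑ t ∈ T, lik (sg t) (S.filter fun i => key i < key j) (W ω) =
      ∑ t ∈ T, sg t j * lik (sg t) (S.filter fun i => key i < key j) (W ω))
    (hc : ∀ ω u, ∀ j ∈ S, ∀ i ∈ S, key i < key j → W (update ω (κ j) u) i = W ω i)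
    {g : (J → ℝ) → ℝ≥0∞} (hg : Measurable g) :
    ∫⁻ ω, g (fun j => if j ∈ S then W ω j else 0) ∂iid K =
      ∑ t ∈ T, (T.card : ℝ≥0∞)⁻¹ *
        ∫⁻ ω, g (fun j => if j ∈ S then Q (sg t j) (ω (κ j)) else 0) ∂iid K := by
  have W1 : ∀ ω, ∀ j ∈ S, |W ω j| ≤ 1 := fun ω j hj => by
    rw [hfix ω j hj]; exact (Q_spec (hm1 ω j) (ω _).2).2
  have L0 : ∀ t ω, ∀ s ⊆ S, 0 < lik (sg t) s (W ω) := fun t ω s hs =>
    prod_pos fun j hj => dens_pos (hsg t j) (W1 ω j (hs hj))
  have N0 : ∀ ω, ∀ s ⊆ S, 0 < ∑ t ∈ T, lik (sg t) s (W ω) := fun ω s hs =>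
    sum_pos (fun t _ => L0 t ω s hs) hT
  let hyb : τ → Finset J → (K → I) → J → ℝ := fun t s ω j =>
    if j ∈ s then W ω j else if j ∈ S then Q (sg t j) (ω (κ j)) else 0
  let F : τ → Finset J → (K → I) → ℝ≥0∞ := fun t s ω =>
    ENNReal.ofReal (lik (sg t) s (W ω) / ∑ t ∈ T, lik (sg t) s (W ω)) * g (hyb t s ω)
  have mF : ∀ t s, Measurable (F t s) := fun t s => by
    refine Measurable.mul ?_ (hg.comp (measurable_pi_lambda _ fun j => ?_))
    · unfold lik; fun_prop
    · simp only [hyb]; split_ifs <;> fun_prop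
  have main : ∀ t s, s ⊆ S → (∀ j ∈ s, ∀ i ∈ S, key i < key j → i ∈ s) →
      ∫⁻ ω, F t s ω ∂iid K = ∫⁻ ω, F t ∅ ω ∂iid K := by
    intro t s
    induction s using Finset.induction_on_max_value key with
    | empty => exact fun _ _ => rfl
    | insert a s ha hmax ih =>
      intro h1 h2
      have aS : a ∈ S := h1 (mem_insert_self _ _)
      have sS : s ⊆ S := (subset_insert _ _).trans h1
      have lt : ∀ i ∈ s, key i < key a := fun i hi => lt_of_le_of_ne (hmax i hi)
        fun h => ha (hkey (sS hi) aS h ▸ hi)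
      have es : S.filter (fun i => key i < key a) = s := by
        ext i
        rw [mem_filter]
        refine ⟨fun h => (mem_insert.1 (h2 a (mem_insert_self _ _) i h.1 h.2)).resolve_left ?_,
          fun h => ⟨sS h, lt i h⟩⟩
        rintro rfl
        exact lt_irrefl _ h.2
      rw [← ih sS fun j hj i hi h => es ▸ mem_filter.2 ⟨hi, h.trans (lt j hj)⟩,
        resample (κ a) (mF t _), resample (κ a) (mF t s)]
      refine lintegral_congr fun ω => ?_
      have c1 : ∀ u t, lik (sg t) s (W (update ω (κ a) u)) = lik (sg t) s (W ω) := fun u t =>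
        prod_congr rfl fun i hi => by rw [hc ω u a aS i (sS hi) (lt i hi)]
      have p1 := hpost ω a aS
      rw [es] at p1
      have c2 : ∀ u, W (update ω (κ a) u) a = Q (m ω a) u := fun u => by
        have p2 := hpost (update ω (κ a) u) a aS
        simp only [es, c1] at p2
        rw [hfix _ a aS, update_self, mul_right_cancel₀ (N0 ω s sS).ne' (p2.trans p1.symm)]
      have c3 : ∀ u, ∀ j ≠ a, hyb t s (update ω (κ a) u) j = hyb t s ω j := fun u j hj => by
        simp only [hyb]
        split_ifs with h3 h4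
        · exact hc ω u a aS j (sS h3) (lt j h3)
        · rw [update_of_ne fun h => hj (hκ h4 aS h)]
        · rfl
      have c4 : ∀ u, hyb t s (update ω (κ a) u) = update (hyb t s ω) a (Q (sg t a) u) :=
        fun u => by
          ext j
          by_cases hj : j = a
          · subst hj; simp [hyb, ha, aS]
          · rw [update_of_ne hj, c3 u j hj]
      have c5 : ∀ u, hyb t (insert a s) (update ω (κ a) u) =
          update (hyb t s ω) a (Q (m ω a) u) := fun u => by
        ext j
        by_cases hj : j = a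
        · subst hj; simp [hyb, c2]
        · rw [update_of_ne hj, ← c3 u j hj]
          simp [hyb, hj]
      have c6 : ∀ u t, lik (sg t) (insert a s) (W (update ω (κ a) u)) =
          (1 + sg t a * Q (m ω a) u / 8) * lik (sg t) s (W ω) := fun u t => by
        rw [← c1 u, ← c2 u]; exact prod_insert ha
      have c7 : ∀ u, ∑ t ∈ T, lik (sg t) (insert a s) (W (update ω (κ a) u)) =
          (1 + m ω a * Q (m ω a) u / 8) * ∑ t ∈ T, lik (sg t) s (W ω) := fun u => by
        have : ∀ t, (1 + sg t a * Q (m ω a) u / 8) * lik (sg t) s (W ω) = lik (sg t) s (W ω) +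
            Q (m ω a) u / 8 * (sg t a * lik (sg t) s (W ω)) := fun t => by ring
        simp only [c6, this, sum_add_distrib, ← mul_sum, ← p1]
        ring
      have mg : Measurable fun w => g (update (hyb t s ω) a w) := hg.comp (measurable_update _)
      simp only [F, c7, c1, c4, c5, c6 _ t]
      rw [lintegral_const_mul' _ _ ENNReal.ofReal_ne_top,
        ← lintegral_tilt (hm1 ω a) (hsg t a) mg, ← lintegral_const_mul' _ _ ENNReal.ofReal_ne_top]
      refine lintegral_congr fun u => ?_
      rw [← mul_assoc, ← ENNReal.ofReal_mul (div_pos (L0 t ω s sS) (N0 ω s sS)).le,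
        mul_div_mul_comm, mul_comm (_ / _)]
  have e0 : ∀ t ∈ T, (T.card : ℝ≥0∞)⁻¹ *
      ∫⁻ ω, g (fun j => if j ∈ S then Q (sg t j) (ω (κ j)) else 0) ∂iid K =
      ∫⁻ ω, F t S ω ∂iid K := fun t _ => by
    rw [main t S Subset.rfl fun _ _ _ h _ => h, ← lintegral_const_mul' _ _ (by simp [hT.ne_empty])]
    refine lintegral_congr fun ω => ?_
    simp only [F, hyb, lik, prod_empty, sum_const, nsmul_eq_mul, mul_one, notMem_empty, if_false,
      one_div]
    rw [ENNReal.ofReal_inv_of_pos (by exact_mod_cast hT.card_pos), ENNReal.ofReal_natCast]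
  rw [sum_congr rfl e0, ← lintegral_finset_sum _ fun t _ => mF t S]
  refine lintegral_congr fun ω => ?_
  have : ∀ t, hyb t S ω = fun j => if j ∈ S then W ω j else 0 := fun t => by
    ext j
    simp only [hyb]
    split_ifs <;> rfl
  simp only [F, this, ← sum_mul]
  rw [← ENNReal.ofReal_sum_of_nonneg fun t _ =>
    (div_pos (L0 t ω S Subset.rfl) (N0 ω S Subset.rfl)).le, ← sum_div,
    div_self (N0 ω S Subset.rfl).ne']
  simp

end Vale.Agent.P143
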