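import Vale.Agent.P143.Kirch

/-!
Properties of the variational edge marginal: bounds, monotonicity, Lipschitz continuity in the
log-conductances, the infinite-volume limit, measurability and transport.
-/

open Finset Filter Topology
open scoped Classical

namespace Vale.Agent.P143

variable {V V' : Type}

theorem val_le_one (H : Finset (V × V)) (x : V × V → ℝ) (d : V × V) (φ : V → ℝ) :
    val H x d φ ≤ 1 := by
  have h : Real.exp (x d) * (φ d.1 - φ d.2) ^ 2 ≤
      ∑ f ∈ insert d H, Real.exp (x f) * (φ f.1 - φ f.2) ^ 2 :=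
    single_le_sum (f := fun f => Real.exp (x f) * (φ f.1 - φ f.2) ^ 2)
      (fun f _ => by positivity) (mem_insert_self d H)
  have h1 := mul_le_mul_of_nonneg_left h (Real.exp_pos (x d)).le
  unfold val
  nlinarith [sq_nonneg (Real.exp (x d) * (φ d.1 - φ d.2) - 1)]

theorem val_bdd (H : Finset (V × V)) (x : V × V → ℝ) (d : V × V) :
    BddAbove (Set.range (val H x d)) := ⟨1, Set.forall_mem_range.2 (val_le_one H x d)⟩

theorem val_le (H : Finset (V × V)) (x : V × V → ℝ) (d : V × V) (φ : V → ℝ) :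
    val H x d φ ≤ mfin H x d := le_ciSup (val_bdd H x d) φ

theorem mfin_le_one (H : Finset (V × V)) (x : V × V → ℝ) (d : V × V) : mfin H x d ≤ 1 :=
  ciSup_le (val_le_one H x d)

theorem mfin_nonneg (H : Finset (V × V)) (x : V × V → ℝ) (d : V × V) : 0 ≤ mfin H x d := by
  have := val_le H x d 0
  simpa [val] using this

theorem mfin_anti {H H' : Finset (V × V)} (h : H ⊆ H') (x : V × V → ℝ) (d : V × V) :
    mfin H' x d ≤ mfin H x d := by
  refine ciSup_le fun φ => le_trans ?_ (val_le H x d φ)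
  refine mul_le_mul_of_nonneg_left (sub_le_sub_left ?_ _) (Real.exp_pos _).le
  exact sum_le_sum_of_subset_of_nonneg (insert_subset_insert _ h) fun f _ _ => by positivity

theorem mfin_lip {H : Finset (V × V)} {x x' : V × V → ℝ} {d : V × V} {η : ℝ}
    (h : ∀ f ∈ insert d H, |x f - x' f| ≤ η) : mfin H x d ≤ mfin H x' d + 2 * η := by
  have hη : 0 ≤ η := (abs_nonneg _).trans (h d (mem_insert_self _ _))
  refine ciSup_le fun φ => ?_
  have h1 := val_le H x' d (fun v => Real.exp (-η) * φ v)
  have h2 := val_le_one H x d φ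
  have h0 := mfin_nonneg H x' d
  rcases le_or_gt (val H x d φ) 0 with h3 | h3
  · linarith
  have k1 : ∑ f ∈ insert d H, Real.exp (x' f) *
      (Real.exp (-η) * φ f.1 - Real.exp (-η) * φ f.2) ^ 2 ≤
      Real.exp (-η) * ∑ f ∈ insert d H, Real.exp (x f) * (φ f.1 - φ f.2) ^ 2 := by
    rw [mul_sum]
    refine sum_le_sum fun f hf => ?_
    have : Real.exp (x' f) * Real.exp (-η) ≤ Real.exp (x f) := by
      rw [← Real.exp_add]
      exact Real.exp_le_exp.2 (by linarith [(abs_le.1 (h f hf)).1])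
    have := mul_le_mul_of_nonneg_right this
      (show 0 ≤ Real.exp (-η) * (φ f.1 - φ f.2) ^ 2 by positivity)
    nlinarith
  have k2 : Real.exp (-(2 * η)) * Real.exp (x d) ≤ Real.exp (x' d) * Real.exp (-η) := by
    rw [← Real.exp_add, ← Real.exp_add]
    exact Real.exp_le_exp.2 (by linarith [(abs_le.1 (h d (mem_insert_self _ _))).2])
  have k3 : 1 - 2 * η ≤ Real.exp (-(2 * η)) := by linarith [Real.add_one_le_exp (-(2 * η))]
  unfold val at h1 h2 h3 ⊢
  set E := ∑ f ∈ insert d H, Real.exp (x f) * (φ f.1 - φ f.2) ^ 2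
  set A := 2 * (φ d.1 - φ d.2) - E with hA
  have A0 : 0 < A := (mul_pos_iff_of_pos_left (Real.exp_pos _)).1 h3
  have k4 := mul_le_mul_of_nonneg_left (sub_le_sub_left k1
    (2 * (Real.exp (-η) * φ d.1 - Real.exp (-η) * φ d.2))) (Real.exp_pos (x' d)).le
  have k5 : Real.exp (x' d) * (2 * (Real.exp (-η) * φ d.1 - Real.exp (-η) * φ d.2) -
      Real.exp (-η) * E) = Real.exp (x' d) * Real.exp (-η) * A := by rw [hA]; ring
  have k6 := mul_le_mul_of_nonneg_right k2 A0.le
  have k7 := mul_le_mul_of_nonneg_right k3 h3.le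
  nlinarith

/-- The infinite-volume marginal. -/
noncomputable def minf (act : V × V → Prop) (x : V × V → ℝ) (d : V × V) : ℝ :=
  ⨅ H : Finset (V × V), if ∀ f ∈ H, act f then mfin H x d else 1

theorem minf_bdd (act : V × V → Prop) (x : V × V → ℝ) (d : V × V) :
    BddBelow (Set.range fun H : Finset (V × V) => if ∀ f ∈ H, act f then mfin H x d else 1) :=
  ⟨0, Set.forall_mem_range.2 fun H => by
    split_ifs
    exacts [mfin_nonneg _ _ _, zero_le_one]⟩

theorem minf_le {act : V × V → Prop} {H : Finset (V × V)} (h : ∀ f ∈ H, act f) (x : V × V → ℝ)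
    (d : V × V) : minf act x d ≤ mfin H x d :=
  (ciInf_le (minf_bdd act x d) H).trans (by rw [if_pos h])

theorem le_minf {act : V × V → Prop} {x : V × V → ℝ} {d : V × V} {c : ℝ}
    (h : ∀ H : Finset (V × V), (∀ f ∈ H, act f) → c ≤ mfin H x d) : c ≤ minf act x d := by
  refine le_ciInf fun H => ?_
  split_ifs with h1
  exacts [h H h1, (h ∅ (by simp)).trans (mfin_le_one _ _ _)]

theorem minf_nonneg (act : V × V → Prop) (x : V × V → ℝ) (d : V × V) : 0 ≤ minf act x d :=
  le_minf fun _ _ => mfin_nonneg _ _ _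

theorem minf_le_one (act : V × V → Prop) (x : V × V → ℝ) (d : V × V) : minf act x d ≤ 1 :=
  (minf_le (H := ∅) (by simp) x d).trans (mfin_le_one _ _ _)

theorem minf_finset (H : Finset (V × V)) (x : V × V → ℝ) (d : V × V) :
    minf (fun f => f ∈ H) x d = mfin H x d :=
  le_antisymm (minf_le (fun _ h => h) x d) (le_minf fun _ h => mfin_anti h x d)

theorem minf_lip' {act : V × V → Prop} {x x' : V × V → ℝ} {d : V × V} {η : ℝ}
    (h : ∀ f, f = d ∨ act f → |x f - x' f| ≤ η) : minf act x d - 2 * η ≤ minf act x' d :=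
  le_minf fun H hH => by
    have := mfin_lip (H := H) (x := x) (x' := x') (d := d) (η := η)
      fun f hf => h f ((mem_insert.1 hf).imp_right (hH f))
    linarith [minf_le hH x d]

theorem minf_lip {act : V × V → Prop} {x x' : V × V → ℝ} {d : V × V} {η : ℝ}
    (h : ∀ f, f = d ∨ act f → |x f - x' f| ≤ η) : |minf act x d - minf act x' d| ≤ 2 * η := by
  have h1 := minf_lip' h
  have h2 := minf_lip' (x := x') (x' := x) fun f hf => by rw [abs_sub_comm]; exact h f hf
  rw [abs_le]
  constructor <;> linarith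

theorem tendsto_mfin {act : V × V → Prop} {H : ℕ → Finset (V × V)} (hm : Monotone H)
    (h1 : ∀ n, ∀ f ∈ H n, act f) (h2 : ∀ f, act f → ∃ n, f ∈ H n) {xs : ℕ → V × V → ℝ}
    {x : V × V → ℝ} (hx : ∀ f, Tendsto (fun n => xs n f) atTop (𝓝 (x f))) {B : ℝ}
    (hB : ∀ n f, |xs n f - x f| ≤ B) (d : V × V) :
    Tendsto (fun n => mfin (H n) (xs n) d) atTop (𝓝 (minf act x d)) := by
  rw [Metric.tendsto_atTop']
  intro ε0 hε0
  obtain ⟨ε, hε, e1⟩ : ∃ ε > 0, ε * (3 + 2 * Real.exp B) < ε0 :=
    ⟨ε0 / (2 * (3 + 2 * Real.exp B)), by positivity, by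
      rw [div_mul_eq_mul_div, mul_div_mul_right _ _ (by positivity)]; linarith⟩
  obtain ⟨H0, h0, h0'⟩ : ∃ H0 : Finset (V × V), (∀ f ∈ H0, act f) ∧
      mfin H0 x d < minf act x d + ε := by
    by_contra hc
    push Not at hc
    linarith [le_minf hc]
  have ev1 : ∀ᶠ n in atTop, ∀ f ∈ H0, f ∈ H n := (eventually_all_finset H0).2 fun f hf => by
    obtain ⟨n, hn⟩ := h2 f (h0 f hf)
    exact (eventually_ge_atTop n).mono fun m hnm => hm hnm hn
  have ev2 : ∀ᶠ n in atTop, ∀ f ∈ insert d H0, |xs n f - x f| ≤ ε :=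
    (eventually_all_finset _).2 fun f _ =>
      ((Metric.tendsto_nhds.1 (hx f)) ε hε).mono fun n hn => le_of_lt hn
  obtain ⟨N, hN⟩ := eventually_atTop.1 (ev1.and ev2)
  refine ⟨N, fun n hn => ?_⟩
  obtain ⟨a1, a2⟩ := hN n hn.le
  have up := (mfin_anti a1 (xs n) d).trans (mfin_lip a2)
  obtain ⟨φ, hφ⟩ : ∃ φ, minf act x d - ε < val (H n) x d φ :=
    exists_lt_of_lt_ciSup (by linarith [minf_le (h1 n) x d] : _ < mfin (H n) x d)
  set y : V × V → ℝ := fun f => if f ∈ insert d H0 then x f else xs n f with hy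
  have l1 : mfin (H n) y d ≤ mfin (H n) (xs n) d + 2 * ε := mfin_lip fun f _ => by
    simp only [hy]
    split_ifs with h
    · rw [abs_sub_comm]; exact a2 f h
    · simpa using hε.le
  have l2 := val_le (H n) y d φ
  have l3 := val_le H0 x d φ
  have sub : insert d H0 ⊆ insert d (H n) := insert_subset_insert _ a1
  unfold val at l2 l3 hφ
  rw [← sum_sdiff sub] at l2 hφ
  have y1 : ∑ f ∈ insert d H0, Real.exp (y f) * (φ f.1 - φ f.2) ^ 2 =
      ∑ f ∈ insert d H0, Real.exp (x f) * (φ f.1 - φ f.2) ^ 2 :=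
    sum_congr rfl fun f hf => by simp only [hy, if_pos hf]
  have y2 : y d = x d := if_pos (mem_insert_self _ _)
  have y3 : ∑ f ∈ insert d (H n) \ insert d H0, Real.exp (y f) * (φ f.1 - φ f.2) ^ 2 ≤
      Real.exp B * ∑ f ∈ insert d (H n) \ insert d H0, Real.exp (x f) * (φ f.1 - φ f.2) ^ 2 := by
    rw [mul_sum]
    refine sum_le_sum fun f hf => ?_
    rw [← mul_assoc, ← Real.exp_add]
    refine mul_le_mul_of_nonneg_right (Real.exp_le_exp.2 ?_) (sq_nonneg _)
    simp only [hy, if_neg (mem_sdiff.1 hf).2]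
    linarith [(abs_le.1 (hB n f)).2]
  rw [y1, y2] at l2
  have t0 : 0 ≤ ∑ f ∈ insert d (H n) \ insert d H0, Real.exp (x f) * (φ f.1 - φ f.2) ^ 2 :=
    sum_nonneg fun f _ => by positivity
  set t := ∑ f ∈ insert d (H n) \ insert d H0, Real.exp (x f) * (φ f.1 - φ f.2) ^ 2
  set t' := ∑ f ∈ insert d (H n) \ insert d H0, Real.exp (y f) * (φ f.1 - φ f.2) ^ 2
  set E := ∑ f ∈ insert d H0, Real.exp (x f) * (φ f.1 - φ f.2) ^ 2
  have c0 := Real.exp_pos (x d)
  have b0 := Real.exp_pos B
  set c := Real.exp (x d)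
  have z1 : c * t ≤ 2 * ε := by linarith
  have z2 := mul_le_mul_of_nonneg_left y3 c0.le
  have z3 := mul_le_mul_of_nonneg_left z1 b0.le
  have z4 := mul_nonneg c0.le t0
  rw [Real.dist_eq, abs_lt]
  constructor <;> nlinarith

theorem measurable_mfin {Ω : Type} [MeasurableSpace Ω] (H : Finset (V × V)) (d : V × V)
    {x : Ω → V × V → ℝ} (hx : ∀ f, Measurable fun ω => x ω f) :
    Measurable fun ω => mfin H (x ω) d := by
  let g : ({f // f ∈ insert d H} → ℝ) → V × V → ℝ :=
    fun y f => if h : f ∈ insert d H then y ⟨f, h⟩ else 0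
  have hc : Continuous fun y => mfin H (g y) d := by
    refine (LipschitzWith.of_dist_le_mul (K := 2) fun y y' => ?_).continuous
    have k : ∀ f ∈ insert d H, |g y f - g y' f| ≤ dist y y' := fun f hf => by
      simp only [g, dif_pos hf]
      exact dist_le_pi_dist y y' ⟨f, hf⟩
    have h1 := mfin_lip k
    have h2 := mfin_lip (x := g y') (x' := g y) fun f hf => by rw [abs_sub_comm]; exact k f hf
    rw [Real.dist_eq, abs_le]
    push_cast
    constructor <;> linarith
  have e : (fun ω => mfin H (x ω) d) = fun ω => mfin H (g fun f => x ω f.1) d := by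
    ext ω
    have k : ∀ f ∈ insert d H, |x ω f - g (fun f => x ω f.1) f| ≤ 0 := fun f hf => by
      simp only [g, dif_pos hf, sub_self, abs_zero, le_refl]
    have h1 := mfin_lip k
    have h2 := mfin_lip (x' := x ω) fun f hf => by rw [abs_sub_comm]; exact k f hf
    linarith
  rw [e]
  have h3 : Measurable fun ω (f : {f // f ∈ insert d H}) => x ω f.1 :=
    measurable_pi_lambda _ fun f => hx f.1
  have h4 := hc.measurable.comp h3
  exact h4

theorem measurable_minf [Countable V] {Ω : Type} [MeasurableSpace Ω] (d : V × V)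
    {act : Ω → V × V → Prop} (ha : ∀ f, Measurable fun ω => act ω f)
    {x : Ω → V × V → ℝ} (hx : ∀ f, Measurable fun ω => x ω f) :
    Measurable fun ω => minf (act ω) (x ω) d := by
  refine Measurable.iInf fun H => Measurable.ite ?_ (measurable_mfin H d hx) measurable_const
  exact measurableSet_setOfPred.2 (Measurable.forall fun f => measurable_const.imp (ha f))

theorem mfin_map (e : V ≃ V') (H : Finset (V × V)) (x' : V' × V' → ℝ) (d : V × V) :
    mfin (H.map (e.prodCongr e).toEmbedding) x' (e.prodCongr e d) =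
      mfin H (fun f => x' (e.prodCongr e f)) d := by
  unfold mfin
  refine (Equiv.iSup_congr (e.arrowCongr (Equiv.refl ℝ)) fun φ => ?_).symm
  unfold val
  have : insert (e.prodCongr e d) (H.map (e.prodCongr e).toEmbedding) =
      (insert d H).map (e.prodCongr e).toEmbedding := by rw [map_insert]; rfl
  rw [this, sum_map]
  simp

theorem minf_map (e : V ≃ V') (act' : V' × V' → Prop) (x' : V' × V' → ℝ) (d : V × V) :
    minf act' x' (e.prodCongr e d) =
      minf (fun f => act' (e.prodCongr e f)) (fun f => x' (e.prodCongr e f)) d := by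
  unfold minf
  refine (Equiv.iInf_congr (e.prodCongr e).finsetCongr fun H => ?_).symm
  rw [Equiv.finsetCongr_apply, mfin_map]
  simp only [forall_mem_map, Equiv.coe_toEmbedding]

end Vale.Agent.P143
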